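import Crest.Statements.S0122

/-! S0122 (permanence of weakly reversible mass-action systems): shared definitions. -/

set_option autoImplicit false

open Finset

namespace Crest.Agent.Perm122

/-- value of the functional with coefficients `D` on the first `p` entries of `w` -/
noncomputable def ev (p : ℕ) (D w : ℕ → ℝ) : ℝ := ∑ i ∈ range p, D i * w i

/-- all functionals of `𝓓` vanish at `w` or are at least `s` in absolute value -/
def Sep (p : ℕ) (𝓓 : Finset (ℕ → ℝ)) (w : ℕ → ℝ) (s : ℝ) : Prop :=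
  ∀ D ∈ 𝓓, ev p D w = 0 ∨ s ≤ |ev p D w|

/-- sign compatibility with margin `ε` -/
def Compat (p : ℕ) (𝓓 : Finset (ℕ → ℝ)) (w σ : ℕ → ℝ) (ε : ℝ) : Prop :=
  ∀ D ∈ 𝓓, 0 < ev p D w → ε ≤ ev p D σ

/-- `f` is a finite sum of `c * exp (- H θ)` with `c ≥ 0`, `θ ≥ b` -/
def ExpSum (b : ℝ) (f : ℝ → ℝ) : Prop :=
  ∃ (n : ℕ) (c θ : Fin n → ℝ), (∀ i, 0 ≤ c i) ∧ (∀ i, b ≤ θ i) ∧
    ∀ H, f H = ∑ i, c i * Real.exp (-(H * θ i))

end Crest.Agent.Perm122
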