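import Crest.Agent.Perm122.Defs

/-! S0122, POLY: the family of polytopes, from the statement of `piece`. -/

set_option autoImplicit false

open Finset

namespace Crest.Agent.Perm122

/-- the statement of `piece` (file Piece.lean) -/
def PieceSpec : Prop :=
  ∀ (q : ℕ) (_ : 0 < q) (s : ℝ) (_ : s = 1 ∨ s = -1) (𝓓 : Finset (Fin q → ℝ))
    (_ : ∀ D ∈ 𝓓, ∀ τ : Equiv.Perm (Fin q), D ∘ τ ∈ 𝓓) (Λ : ℝ),
    ∃ (ι : Type) (_ : Fintype ι) (W : ι → Fin q → ℝ) (κ κ' : ι → ℝ → ℝ) (ε H₀ : ℝ),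
      0 < ε ∧ ε ≤ 1 ∧ 0 < H₀ ∧ (∀ i j, s ≤ W i j) ∧ (∃ i₀, ∀ j, W i₀ j = s) ∧
      (∀ i, Continuous (κ' i)) ∧
      (∀ i, ∀ H ≥ H₀, 0 ≤ κ i H ∧ κ i H ≤ Real.exp (-(s * H)) / 2 ∧
        HasDerivAt (κ i) (κ' i H) H ∧ |κ' i H| ≤ Real.exp (-(s * H)) / 2) ∧
      ∀ H ≥ H₀, ∀ x : Fin q → ℝ, (∀ j, Real.exp (-(Λ * H)) ≤ x j) →
        (∀ i, ∀ τ : Equiv.Perm (Fin q),
          s * Real.exp (-(s * H)) - κ i H ≤ ∑ j, W i j * x (τ j)) →
        ∀ i, ∑ j, W i j * x j = s * Real.exp (-(s * H)) - κ i H →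
          ∀ D ∈ 𝓓, 0 < ∑ j, D j * W i j → ε * H ≤ ∑ j, D j * (-Real.log (x j))

namespace Poly

/-- the data delivered by `piece` -/
structure PData (q : ℕ) (s : ℝ) (𝓓 : Finset (Fin q → ℝ)) (Λ : ℝ) where
  ι : Type
  inst : Fintype ι
  W : ι → Fin q → ℝ
  κ : ι → ℝ → ℝ
  κ' : ι → ℝ → ℝ
  ε : ℝ
  H₀ : ℝ
  εpos : 0 < ε
  εle : ε ≤ 1
  H₀pos : 0 < H₀
  W_ge : ∀ i j, s ≤ W i j
  tie : ∃ i₀, ∀ j, W i₀ j = s
  cont : ∀ i, Continuous (κ' i)
  kap : ∀ i, ∀ H ≥ H₀, 0 ≤ κ i H ∧ κ i H ≤ Real.exp (-(s * H)) / 2 ∧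
        HasDerivAt (κ i) (κ' i H) H ∧ |κ' i H| ≤ Real.exp (-(s * H)) / 2
  main : ∀ H ≥ H₀, ∀ x : Fin q → ℝ, (∀ j, Real.exp (-(Λ * H)) ≤ x j) →
        (∀ i, ∀ τ : Equiv.Perm (Fin q),
          s * Real.exp (-(s * H)) - κ i H ≤ ∑ j, W i j * x (τ j)) →
        ∀ i, ∑ j, W i j * x j = s * Real.exp (-(s * H)) - κ i H →
          ∀ D ∈ 𝓓, 0 < ∑ j, D j * W i j → ε * H ≤ ∑ j, D j * (-Real.log (x j))

theorem PData.nonempty (hP : PieceSpec) (q : ℕ) (hq : 0 < q) (s : ℝ) (hs : s = 1 ∨ s = -1)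
    (𝓓 : Finset (Fin q → ℝ)) (h𝓓 : ∀ D ∈ 𝓓, ∀ τ : Equiv.Perm (Fin q), D ∘ τ ∈ 𝓓) (Λ : ℝ) :
    Nonempty (PData q s 𝓓 Λ) := by
  obtain ⟨ι, inst, W, κ, κ', ε, H₀, h1, h2, h3, h4, h5, h6, h7, h8⟩ := hP q hq s hs 𝓓 h𝓓 Λ
  exact ⟨⟨ι, inst, W, κ, κ', ε, H₀, h1, h2, h3, h4, h5, h6, h7, h8⟩⟩

/-- the functionals of a piece -/
noncomputable def fam {n : ℕ} (𝒜 : Finset (Fin n → ℝ)) (q : ℕ) : Finset (Fin q → ℝ) := by
  classical
  exact (𝒜 ×ˢ (univ : Finset (Fin q ↪ Fin n))).image (fun p j => -p.1 (p.2 j))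

theorem mem_fam {n : ℕ} {𝒜 : Finset (Fin n → ℝ)} {q : ℕ} {a : Fin n → ℝ} (ha : a ∈ 𝒜)
    (π : Fin q ↪ Fin n) : (fun j => -a (π j)) ∈ fam 𝒜 q := by
  classical
  unfold fam
  exact mem_image.2 ⟨(a, π), by simp [ha], rfl⟩

theorem fam_perm {n : ℕ} {𝒜 : Finset (Fin n → ℝ)} {q : ℕ} :
    ∀ D ∈ fam 𝒜 q, ∀ τ : Equiv.Perm (Fin q), D ∘ τ ∈ fam 𝒜 q := by
  classical
  intro D hD τ
  unfold fam at hD
  obtain ⟨⟨a, π⟩, h, rfl⟩ := mem_image.1 hD
  rw [mem_product] at h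
  have := mem_fam (q := q) h.1 (τ.toEmbedding.trans π)
  simpa [Function.comp_def] using this

/-- the sequence of scales -/
theorem scales (q : ℕ → ℕ) (s : ℕ → ℝ) (𝓓 : ∀ k, Finset (Fin (q k) → ℝ))
    (F : ∀ k (Λ : ℝ), Nonempty (PData (q k) (s k) (𝓓 k) Λ)) (M : ℝ) (hM : 1 ≤ M) :
    ∃ (lam : ℕ → ℝ) (P : ∀ k, PData (q k) (s k) (𝓓 k) (2 / lam k)), lam 0 = 1 ∧
      (∀ k, 0 < lam k) ∧ (∀ k, lam (k + 1) * (4 * M) = lam k * (P k).ε) ∧
      (∀ k, lam (k + 1) * 4 ≤ lam k) := by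
  classical
  let F' : ∀ k (Λ : ℝ), PData (q k) (s k) (𝓓 k) Λ := fun k Λ => Classical.choice (F k Λ)
  let lam : ℕ → ℝ := fun k => Nat.rec (motive := fun _ => ℝ) 1
    (fun k l => l * (F' k (2 / l)).ε / (4 * M)) k
  have hs : ∀ k, lam (k + 1) = lam k * (F' k (2 / lam k)).ε / (4 * M) := fun k => rfl
  have hpos : ∀ k, 0 < lam k := by
    intro k
    induction k with
    | zero => exact one_pos
    | succ k ih =>
      rw [hs]
      have := (F' k (2 / lam k)).εpos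
      positivity
  have h4 : ∀ k, lam (k + 1) * (4 * M) = lam k * (F' k (2 / lam k)).ε := by
    intro k
    rw [hs]
    field_simp
  refine ⟨lam, fun k => F' k (2 / lam k), rfl, hpos, h4, ?_⟩
  intro k
  have h1 := h4 k
  have h2 := (F' k (2 / lam k)).εle
  have h3 := hpos k
  have h5 := hpos (k + 1)
  nlinarith

theorem sum_ell {q n : ℕ} (π : Fin q ↪ Fin n) (W : Fin q → ℝ) (x : Fin n → ℝ) :
    ∑ l, (∑ j, if π j = l then W j else 0) * x l = ∑ j, W j * x (π j) := by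
  classical
  simp_rw [sum_mul]
  rw [sum_comm]
  refine sum_congr rfl fun j _ => ?_
  simp [ite_mul]

theorem sum_ell' {q n : ℕ} (π : Fin q ↪ Fin n) (W : Fin q → ℝ) (a : Fin n → ℝ) :
    ∑ l, a l * (∑ j, if π j = l then W j else 0) = ∑ j, a (π j) * W j := by
  rw [sum_congr rfl fun l _ => mul_comm (a l) (∑ j, if π j = l then W j else 0), sum_ell]
  exact sum_congr rfl fun j _ => mul_comm _ _

/-- the embedding with a prescribed image -/
theorem exists_emb {n q : ℕ} (S : Finset (Fin n)) (hS : S.card = q) :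
    ∃ π : Fin q ↪ Fin n, univ.map π = S :=
  ⟨(S.orderEmbOfFin hS).toEmbedding, S.map_orderEmbOfFin_univ hS⟩

theorem sum_emb {n q : ℕ} (π : Fin q ↪ Fin n) (f : Fin n → ℝ) :
    ∑ j, f (π j) = ∑ i ∈ univ.map π, f i := by
  rw [sum_map]

/-- constraints of a piece at `x` at scale `h` -/
def Cons {n q : ℕ} {s : ℝ} {𝓓 : Finset (Fin q → ℝ)} {Λ : ℝ} (P : PData q s 𝓓 Λ) (h : ℝ)
    (x : Fin n → ℝ) : Prop :=
  ∀ (i : P.ι) (π : Fin q ↪ Fin n),
    s * Real.exp (-(s * h)) - P.κ i h ≤ ∑ j, P.W i j * x (π j)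

theorem PData.lower {n q : ℕ} {𝓓 : Finset (Fin q → ℝ)} {Λ : ℝ} (P : PData q 1 𝓓 Λ)
    {h : ℝ} (hh : P.H₀ ≤ h) {x : Fin n → ℝ} (hx : Cons P h x) (S : Finset (Fin n))
    (hS : S.card = q) : Real.exp (-h) / 2 ≤ ∑ i ∈ S, x i := by
  obtain ⟨π, hπ⟩ := exists_emb S hS
  obtain ⟨i₀, hi₀⟩ := P.tie
  have h1 := hx i₀ π
  have h2 := (P.kap i₀ h hh).2.1
  simp only [hi₀, one_mul] at h1 h2
  rw [sum_emb, hπ] at h1
  linarith

theorem PData.upper {n : ℕ} {𝓓 : Finset (Fin n → ℝ)} {Λ : ℝ} (P : PData n (-1) 𝓓 Λ)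
    {h : ℝ} (hh : P.H₀ ≤ h) {x : Fin n → ℝ} (hx : Cons P h x) :
    ∑ i, x i ≤ 3 / 2 * Real.exp h := by
  obtain ⟨i₀, hi₀⟩ := P.tie
  have h1 := hx i₀ (Function.Embedding.refl _)
  have h2 := (P.kap i₀ h hh).2.1
  simp only [hi₀, neg_mul, one_mul, neg_neg, sum_neg_distrib,
    Function.Embedding.refl_apply] at h1 h2
  linarith

theorem PData.active {n q : ℕ} {s : ℝ} {𝒜 : Finset (Fin n → ℝ)} {Λ : ℝ}
    (P : PData q s (fam 𝒜 q) Λ) {h : ℝ} (hh : P.H₀ ≤ h) {x : Fin n → ℝ} (hx : Cons P h x)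
    (hΛ : ∀ i, Real.exp (-(Λ * h)) ≤ x i) (i : P.ι) (π : Fin q ↪ Fin n)
    (heq : ∑ j, P.W i j * x (π j) = s * Real.exp (-(s * h)) - P.κ i h) (a : Fin n → ℝ)
    (ha : a ∈ 𝒜) (hneg : ∑ j, a (π j) * P.W i j < 0) :
    P.ε * h ≤ ∑ i ∈ univ.map π, a i * Real.log (x i) := by
  have h1 := P.main h hh (fun j => x (π j)) (fun j => hΛ _)
    (fun i τ => hx i (τ.toEmbedding.trans π)) i heq _ (mem_fam ha π) (by
      simpa [neg_mul, sum_neg_distrib] using hneg)
  rw [← sum_emb π (fun i => a i * Real.log (x i))]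
  simpa using h1

theorem PData.deriv {q : ℕ} {s : ℝ} {𝓓 : Finset (Fin q → ℝ)} {Λ : ℝ} (P : PData q s 𝓓 Λ)
    (hs : s = 1 ∨ s = -1) {lam : ℝ} (hlam : 0 < lam) (i : P.ι) {H : ℝ}
    (hH : P.H₀ ≤ lam * H) :
    HasDerivAt (fun H => s * Real.exp (-(s * (lam * H))) - P.κ i (lam * H))
      (-(lam * Real.exp (-(s * (lam * H)))) - P.κ' i (lam * H) * lam) H ∧
      -(lam * Real.exp (-(s * (lam * H)))) - P.κ' i (lam * H) * lam < 0 := by
  obtain ⟨-, -, h3, h4⟩ := P.kap i _ hH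
  have hss : s * s = 1 := by rcases hs with rfl | rfl <;> norm_num
  have hl : HasDerivAt (fun H : ℝ => lam * H) lam H := by
    simpa using (hasDerivAt_id H).const_mul lam
  constructor
  · have h5 : HasDerivAt (fun H => P.κ i (lam * H)) (P.κ' i (lam * H) * lam) H :=
      HasDerivAt.comp H h3 hl
    have h6 : HasDerivAt (fun H => s * Real.exp (-(s * (lam * H))))
        (s * (Real.exp (-(s * (lam * H))) * (-(s * lam)))) H :=
      ((hl.const_mul s).neg.exp).const_mul s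
    have h7 : s * (Real.exp (-(s * (lam * H))) * (-(s * lam))) =
        -(lam * Real.exp (-(s * (lam * H)))) := by
      linear_combination (-(lam * Real.exp (-(s * (lam * H))))) * hss
    rw [h7] at h6
    exact h6.sub h5
  · have h8 := neg_abs_le (P.κ' i (lam * H))
    have h9 := Real.exp_pos (-(s * (lam * H)))
    have : 0 < lam * Real.exp (-(s * (lam * H))) := by positivity
    nlinarith

theorem log_of_lower {y h : ℝ} (hy : Real.exp (-h) / 4 ≤ y) : -(h + Real.log 4) ≤ Real.log y := by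
  have h4 : (0:ℝ) < 4 := by norm_num
  have : Real.log (Real.exp (-h) / 4) ≤ Real.log y :=
    Real.log_le_log (by positivity) hy
  rw [Real.log_div (Real.exp_pos _).ne' h4.ne', Real.log_exp] at this
  linarith

theorem log_of_upper {y h : ℝ} (hy0 : 0 < y) (hy : y ≤ 3 / 2 * Real.exp h) :
    Real.log y ≤ h + Real.log 4 := by
  have h4 : (0:ℝ) < 4 := by norm_num
  have h1 := Real.exp_pos h
  have : Real.log y ≤ Real.log (4 * Real.exp h) :=
    Real.log_le_log hy0 (by linarith)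
  rw [Real.log_mul h4.ne' (Real.exp_pos _).ne', Real.log_exp] at this
  linarith

theorem key {n : ℕ} (hn : 0 < n) (𝒜 : Finset (Fin n → ℝ)) (δ : ℝ) (q : ℕ → ℕ) (s : ℕ → ℝ)
    (hs1 : ∀ k < n, s k = 1) (hsn : s n = -1)
    (hq1 : ∀ k < n, q k = k + 1) (hqn : q n = n) (M : ℝ)
    (hM𝒜 : ∀ a ∈ 𝒜, ∑ i, |a i| ≤ M) (lam : ℕ → ℝ)
    (P : ∀ k, PData (q k) (s k) (fam 𝒜 (q k)) (2 / lam k)) (hlam0 : lam 0 = 1)
    (hlam : ∀ k, 0 < lam k) (hlam1 : ∀ k, lam (k + 1) * (4 * M) = lam k * (P k).ε)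
    (hlam4 : ∀ k, lam (k + 1) * 4 ≤ lam k) :
    ∃ H₀ > 0, (∀ k ≤ n, ∀ H ≥ H₀, (P k).H₀ ≤ lam k * H) ∧
      ∀ H ≥ H₀, ∀ x : Fin n → ℝ, (∀ k ≤ n, Cons (P k) (lam k * H) x) →
        (∀ i, 0 < x i ∧ x i ≤ 3 / 2 * Real.exp (lam n * H)) ∧
        ∀ k ≤ n, ∀ (i : (P k).ι) (π : Fin (q k) ↪ Fin n),
          ∑ j, (P k).W i j * x (π j) =
            s k * Real.exp (-(s k * (lam k * H))) - (P k).κ i (lam k * H) →
          ∀ a ∈ 𝒜, ∑ j, a (π j) * (P k).W i j < 0 → δ ≤ ∑ i, a i * Real.log (x i) := by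
  classical
  -- scales decrease
  have hmono : ∀ k m, k ≤ m → lam m ≤ lam k := by
    intro k m hkm
    induction m, hkm using Nat.le_induction with
    | base => exact le_rfl
    | succ m _ ih => have := hlam4 m; have := hlam (m + 1); linarith
  -- all conditions on `H`
  have ev : ∀ c : ℝ, 0 < c → ∀ b : ℝ, ∀ᶠ H in Filter.atTop, b ≤ c * H := fun c hc b =>
    (Filter.tendsto_id.const_mul_atTop hc).eventually_ge_atTop b
  have E : ∀ᶠ H in Filter.atTop, 0 < H ∧ Real.log 2 ≤ H ∧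
      ∀ k ∈ range (n + 1), (P k).H₀ ≤ lam k * H ∧ Real.log 4 ≤ 3 / 4 * lam k * H ∧
        δ + M * Real.log 4 ≤ (P k).ε * lam k * (3 / 4) * H ∧ δ ≤ (P k).ε * lam k * H := by
    refine (Filter.eventually_gt_atTop 0).and ((Filter.eventually_ge_atTop _).and ?_)
    refine (Filter.eventually_all_finset _).2 fun k _ => ?_
    have h1 := hlam k
    have h2 := (P k).εpos
    exact (ev _ h1 _).and ((ev _ (by positivity) _).and ((ev _ (by positivity) _).and
      (ev _ (by positivity) _)))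
  obtain ⟨H₁, hH₁⟩ := Filter.eventually_atTop.1 E
  refine ⟨max H₁ 1, by positivity, ?_, ?_⟩
  · intro k hk H hH
    exact ((hH₁ H ((le_max_left _ _).trans hH)).2.2 k (mem_range.2 (by omega))).1
  intro H hH x hx
  obtain ⟨hHpos, hH2, hHk⟩ := hH₁ H ((le_max_left _ _).trans hH)
  have hHk' := fun k (hk : k ≤ n) => hHk k (mem_range.2 (by omega))
  clear hHk
  have low : ∀ k < n, ∀ S : Finset (Fin n), S.card = k + 1 →
      Real.exp (-(lam k * H)) / 2 ≤ ∑ i ∈ S, x i := by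
    intro k hk S hS
    have hx' := hx k hk.le
    have hh := (hHk' k hk.le).1
    generalize P k = Pk at hx' hh
    revert Pk
    rw [hs1 k hk]
    intro Pk hx' hh
    exact Pk.lower hh hx' S (by rw [hS, hq1 k hk])
  have up : ∑ i, x i ≤ 3 / 2 * Real.exp (lam n * H) := by
    have hx' := hx n le_rfl
    have hh := (hHk' n le_rfl).1
    generalize P n = Pn at hx' hh
    revert Pn
    rw [hsn, hqn]
    intro Pn hx' hh
    exact Pn.upper hh hx'
  have hx1 : ∀ i, Real.exp (-H) / 2 ≤ x i := by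
    intro i
    have := low 0 hn {i} (by simp)
    simpa [hlam0] using this
  have hxpos : ∀ i, 0 < x i := fun i => lt_of_lt_of_le (by positivity) (hx1 i)
  have hxup : ∀ i, x i ≤ 3 / 2 * Real.exp (lam n * H) := fun i =>
    (single_le_sum (fun j _ => (hxpos j).le) (mem_univ i)).trans up
  refine ⟨fun i => ⟨hxpos i, hxup i⟩, ?_⟩
  intro k hk i π heq a ha hneg
  obtain ⟨hk1, hk2, hk3, hk4⟩ := hHk' k hk
  have hact := (P k).active hk1 (hx k hk) (fun i => by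
    have h1 : 2 / lam k * (lam k * H) = 2 * H := by
      have := (hlam k).ne'
      field_simp
    rw [h1]
    refine le_trans ?_ (hx1 i)
    have h2 : Real.exp (-(2 * H)) = Real.exp (-H) * Real.exp (-H) := by
      rw [← Real.exp_add]; ring_nf
    have h3 : Real.exp (-H) ≤ 1 / 2 := by
      rw [Real.exp_neg, one_div]
      refine inv_anti₀ (by norm_num) ?_
      rw [← Real.log_le_iff_le_exp (by norm_num)]
      exact hH2
    rw [h2]
    have := Real.exp_pos (-H)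
    nlinarith) i π heq a ha hneg
  rcases hk.lt_or_eq with hkn | rfl
  · -- a piece with `s = 1`
    have hcompl : ∀ l ∉ univ.map π, |Real.log (x l)| ≤ lam (k + 1) * H + Real.log 4 := by
      intro l hl
      have hcard : (univ.map π).card = k + 1 := by rw [card_map, card_univ, Fintype.card_fin, hq1 k hkn]
      have hk1n : k + 1 < n := by
        by_contra hcon
        have : (univ.map π) = univ := by
          rw [← card_eq_iff_eq_univ, hcard, Fintype.card_fin]; omega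
        exact hl (this ▸ mem_univ l)
      rw [abs_le]
      constructor
      · refine log_of_lower ?_
        have h1 := low (k + 1) hk1n (insert l (univ.map π)) (by rw [card_insert_of_notMem hl, hcard])
        rw [sum_insert hl, ← sum_emb π x] at h1
        have h2 : ∑ j, x (π j) ≤ Real.exp (-(lam k * H)) := by
          have h3 : ∑ j, x (π j) ≤ ∑ j, (P k).W i j * x (π j) := by
            refine sum_le_sum fun j _ => ?_
            have h5 := (P k).W_ge i j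
            have h6 := hxpos (π j)
            have h5' : (1:ℝ) ≤ (P k).W i j := by linarith [hs1 k hkn]
            nlinarith
          have h4 := ((P k).kap i _ hk1).1
          have h4' : s k * Real.exp (-(s k * (lam k * H))) = Real.exp (-(lam k * H)) := by
            rw [hs1 k hkn]; simp
          linarith
        have h7 : Real.exp (-(lam k * H)) ≤ Real.exp (-(lam (k + 1) * H)) / 4 := by
          have h8 : -(lam k * H) ≤ -(lam (k + 1) * H) - Real.log 4 := by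
            have h9 := hlam4 k
            nlinarith
          refine (Real.exp_le_exp.2 h8).trans ?_
          rw [Real.exp_sub, Real.exp_log (by norm_num)]
        linarith
      · refine (log_of_upper (hxpos l) (hxup l)).trans ?_
        have := hmono (k + 1) n hk1n.le
        nlinarith
    have hsplit : ∑ i, a i * Real.log (x i) = ∑ i ∈ univ.map π, a i * Real.log (x i) +
        ∑ i ∈ (univ.map π)ᶜ, a i * Real.log (x i) := (sum_add_sum_compl _ _).symm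
    have hout : -(M * (lam (k + 1) * H + Real.log 4)) ≤
        ∑ i ∈ (univ.map π)ᶜ, a i * Real.log (x i) := by
      have hb : 0 ≤ lam (k + 1) * H + Real.log 4 := by
        have := hlam (k + 1)
        have := Real.log_nonneg (show (1:ℝ) ≤ 4 by norm_num)
        positivity
      have h1 : |∑ i ∈ (univ.map π)ᶜ, a i * Real.log (x i)| ≤
          ∑ i ∈ (univ.map π)ᶜ, |a i| * (lam (k + 1) * H + Real.log 4) := by
        refine (abs_sum_le_sum_abs _ _).trans (sum_le_sum fun l hl => ?_)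
        rw [abs_mul]
        exact mul_le_mul_of_nonneg_left (hcompl l (mem_compl.1 hl)) (abs_nonneg _)
      have h2 : ∑ i ∈ (univ.map π)ᶜ, |a i| ≤ M :=
        (sum_le_sum_of_subset_of_nonneg (subset_univ _) fun i _ _ => abs_nonneg _).trans
          (hM𝒜 a ha)
      rw [← sum_mul] at h1
      have h3 := mul_le_mul_of_nonneg_right h2 hb
      have h4 := neg_abs_le (∑ i ∈ (univ.map π)ᶜ, a i * Real.log (x i))
      linarith
    have h10 := hlam1 k
    rw [hsplit]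
    have h11 : M * (lam (k + 1) * H) = (P k).ε * lam k * H / 4 := by
      linear_combination (H / 4) * h10
    linarith
  · -- the top piece
    have huniv : (univ.map π) = univ := by
      rw [← card_eq_iff_eq_univ, card_map, card_univ, Fintype.card_fin, Fintype.card_fin, hqn]
    rw [huniv] at hact
    linarith

end Poly

open Crest.Agent.Perm122.Poly in
/-- the family of polytopes -/
theorem polytopes_of_piece (hP : PieceSpec) (n : ℕ) (hn : 0 < n) (𝒜 : Finset (Fin n → ℝ))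
    (δ : ℝ) :
    ∃ (J : Type) (_ : Fintype J) (ℓ : J → Fin n → ℝ) (g g' : J → ℝ → ℝ) (C : ℝ → ℝ) (H₀ : ℝ),
      0 < H₀ ∧ (∀ j, Continuous (g' j)) ∧
      (∀ j, ∀ H ≥ H₀, HasDerivAt (g j) (g' j H) H ∧ g' j H < 0) ∧
      (∀ H ≥ H₀, ∀ x : Fin n → ℝ, (∀ j, g j H ≤ ∑ i, ℓ j i * x i) →
        ∀ i, 0 < x i ∧ x i ≤ C H) ∧
      (∀ x : Fin n → ℝ, (∀ i, 0 < x i) → ∃ H₁ ≥ H₀, ∀ H ≥ H₁, ∀ j,
        g j H < ∑ i, ℓ j i * x i) ∧
      ∀ H ≥ H₀, ∀ x : Fin n → ℝ, (∀ j, g j H ≤ ∑ i, ℓ j i * x i) →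
        ∀ j, ∑ i, ℓ j i * x i = g j H →
          ∀ a ∈ 𝒜, ∑ i, a i * ℓ j i < 0 → δ ≤ ∑ i, a i * Real.log (x i) := by
  classical
  let q : ℕ → ℕ := fun k => if k < n then k + 1 else n
  let s : ℕ → ℝ := fun k => if k < n then 1 else -1
  have hs : ∀ k, s k = 1 ∨ s k = -1 := by
    intro k
    by_cases h : k < n <;> simp [s, h]
  have hs1 : ∀ k < n, s k = 1 := fun k hk => by simp [s, hk]
  have hsn : s n = -1 := by simp [s]
  have hq1 : ∀ k < n, q k = k + 1 := fun k hk => by simp [q, hk]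
  have hqn : q n = n := by simp [q]
  have hqpos : ∀ k, 0 < q k := by
    intro k
    by_cases h : k < n <;> simp [q, h, hn]
  obtain ⟨M, hM, hM𝒜⟩ : ∃ M : ℝ, 1 ≤ M ∧ ∀ a ∈ 𝒜, ∑ i, |a i| ≤ M := by
    refine ⟨1 + ∑ a ∈ 𝒜, ∑ i, |a i|, ?_, ?_⟩
    · have : 0 ≤ ∑ a ∈ 𝒜, ∑ i, |a i| := by positivity
      linarith
    · intro a ha
      have := single_le_sum (f := fun a : Fin n → ℝ => ∑ i, |a i|)
        (fun a _ => by positivity) ha
      linarith
  obtain ⟨lam, P, hlam0, hlam, hlam1, hlam4⟩ := scales q s (fun k => fam 𝒜 (q k))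
    (fun k Λ => PData.nonempty hP (q k) (hqpos k) (s k) (hs k) _ fam_perm Λ) M hM
  obtain ⟨H₀, hH₀, hHP, hkey⟩ := key hn 𝒜 δ q s hs1 hsn hq1 hqn M hM𝒜 lam P hlam0 hlam
    hlam1 hlam4
  have : ∀ k, Fintype (P k).ι := fun k => (P k).inst
  have hconv : ∀ (H : ℝ) (x : Fin n → ℝ),
      (∀ j : Σ k : Fin (n + 1), (P k).ι × (Fin (q k) ↪ Fin n),
        s j.1 * Real.exp (-(s j.1 * (lam j.1 * H))) - (P j.1).κ j.2.1 (lam j.1 * H) ≤
          ∑ l, (∑ m, if j.2.2 m = l then (P j.1).W j.2.1 m else 0) * x l) →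
      ∀ k ≤ n, Cons (P k) (lam k * H) x := by
    intro H x hx k hk i π
    have := hx ⟨⟨k, by omega⟩, i, π⟩
    rwa [sum_ell] at this
  refine ⟨Σ k : Fin (n + 1), (P k).ι × (Fin (q k) ↪ Fin n), inferInstance,
    fun j l => ∑ m, if j.2.2 m = l then (P j.1).W j.2.1 m else 0,
    fun j H => s j.1 * Real.exp (-(s j.1 * (lam j.1 * H))) - (P j.1).κ j.2.1 (lam j.1 * H),
    fun j H => -(lam j.1 * Real.exp (-(s j.1 * (lam j.1 * H)))) -
      (P j.1).κ' j.2.1 (lam j.1 * H) * lam j.1,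
    fun H => 3 / 2 * Real.exp (lam n * H), H₀, hH₀, ?_, ?_, ?_, ?_, ?_⟩
  · intro j
    have := (P j.1).cont j.2.1
    fun_prop
  · intro j H hH
    exact (P j.1).deriv (hs _) (hlam _) j.2.1 (hHP j.1 (by omega) H hH)
  · intro H hH x hx
    exact (hkey H hH x (hconv H x hx)).1
  · intro x hx
    have hmin : ∃ ξ > 0, ∀ i, ξ ≤ x i := by
      have : Nonempty (Fin n) := ⟨⟨0, hn⟩⟩
      obtain ⟨i₀, hi₀⟩ := Finite.exists_min x
      exact ⟨x i₀, hx i₀, hi₀⟩
    obtain ⟨ξ, hξ, hξx⟩ := hmin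
    have e1 : ∀ k, ∀ᶠ H : ℝ in Filter.atTop, Real.exp (-(lam k * H)) < ξ := by
      intro k
      have : Filter.Tendsto (fun H : ℝ => Real.exp (-(lam k * H))) Filter.atTop (nhds 0) :=
        Real.tendsto_exp_neg_atTop_nhds_zero.comp
          (Filter.tendsto_id.const_mul_atTop (hlam k))
      exact this.eventually (gt_mem_nhds hξ)
    have e2 : ∀ k, ∀ᶠ H : ℝ in Filter.atTop, ∑ i, x i < Real.exp (lam k * H) := by
      intro k
      have : Filter.Tendsto (fun H : ℝ => Real.exp (lam k * H)) Filter.atTop Filter.atTop :=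
        Real.tendsto_exp_atTop.comp (Filter.tendsto_id.const_mul_atTop (hlam k))
      exact this.eventually (Filter.eventually_gt_atTop _)
    have e3 : ∀ᶠ H : ℝ in Filter.atTop, ∀ k ∈ range (n + 1),
        Real.exp (-(lam k * H)) < ξ ∧ ∑ i, x i < Real.exp (lam k * H) :=
      (Filter.eventually_all_finset _).2 fun k _ => (e1 k).and (e2 k)
    obtain ⟨H₁, hH₁⟩ := Filter.eventually_atTop.1 e3
    refine ⟨max H₀ H₁, le_max_left _ _, ?_⟩
    intro H hH j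
    obtain ⟨h1, h2⟩ := hH₁ H ((le_max_right _ _).trans hH) j.1 (mem_range.2 (by omega))
    have hPk := (P j.1).kap j.2.1 _ (hHP j.1 (by omega) H ((le_max_left _ _).trans hH))
    simp only [sum_ell]
    have hW : s j.1 * ∑ m, x (j.2.2 m) ≤ ∑ m, (P j.1).W j.2.1 m * x (j.2.2 m) := by
      rw [mul_sum]
      exact sum_le_sum fun m _ => mul_le_mul_of_nonneg_right ((P j.1).W_ge _ _) (hx _).le
    refine lt_of_lt_of_le ?_ hW
    rcases (hs j.1) with hs' | hs'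
    · have h5 : s j.1 * Real.exp (-(s j.1 * (lam j.1 * H))) = Real.exp (-(lam j.1 * H)) := by
        rw [hs']; simp
      have h6 : s j.1 * ∑ m, x (j.2.2 m) = ∑ m, x (j.2.2 m) :=
        (congrArg (fun c => c * ∑ m, x (j.2.2 m)) hs').trans (one_mul _)
      rw [h5, h6]
      have h3 : x (j.2.2 ⟨0, hqpos _⟩) ≤ ∑ m, x (j.2.2 m) :=
        single_le_sum (f := fun m => x (j.2.2 m)) (fun m _ => (hx _).le) (mem_univ _)
      have h4 := hξx (j.2.2 ⟨0, hqpos _⟩)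
      linarith [hPk.1]
    · have h5 : s j.1 * Real.exp (-(s j.1 * (lam j.1 * H))) = -Real.exp (lam j.1 * H) := by
        rw [hs']; simp
      have h6 : s j.1 * ∑ m, x (j.2.2 m) = -∑ m, x (j.2.2 m) :=
        (congrArg (fun c => c * ∑ m, x (j.2.2 m)) hs').trans (neg_one_mul _)
      rw [h5, h6]
      have h3 : ∑ m, x (j.2.2 m) ≤ ∑ i, x i := by
        rw [sum_emb]
        exact sum_le_sum_of_subset_of_nonneg (subset_univ _) fun i _ _ => (hx i).le
      linarith [hPk.1]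
  · intro H hH x hx j heq a ha hneg
    have heq' : ∑ l, (∑ m, if j.2.2 m = l then (P j.1).W j.2.1 m else 0) * x l =
        s j.1 * Real.exp (-(s j.1 * (lam j.1 * H))) - (P j.1).κ j.2.1 (lam j.1 * H) := heq
    have hneg' : ∑ l, a l * (∑ m, if j.2.2 m = l then (P j.1).W j.2.1 m else 0) < 0 := hneg
    rw [sum_ell] at heq'
    rw [sum_ell'] at hneg'
    exact (hkey H hH x (hconv H x hx)).2 j.1 (by omega) j.2.1 j.2.2 heq' a ha hneg'

end Crest.Agent.Perm122
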