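import Crest.Agent.Perm.Dom
import Crest.Agent.Perm.TrapC
import Crest.Agent.Perm122.Poly

/-! S0122: the trapping family of a weakly reversible network (final assembly). -/

set_option autoImplicit false

open Finset

namespace Crest.Agent.Perm122

open Crest.AnalysisR.MassAction Crest.Agent.Perm

theorem F_neg {n : ℕ} (ℓ x : Fin n → ℝ) : F (-ℓ, 0) x = -∑ i, ℓ i * x i := by
  unfold F
  simp only [Pi.neg_apply, add_zero, neg_mul, sum_neg_distrib]

open Classical in
/-- the finite set of small integer vectors, as real vectors -/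
noncomputable def intBox (n B : ℕ) : Finset (Fin n → ℝ) :=
  (Fintype.piFinset fun _ : Fin n => Finset.Icc (-(B : ℤ)) (B : ℤ)).image
    fun e a => (e a : ℝ)

theorem mem_intBox {n B : ℕ} {e : Fin n → ℤ} (he : ∀ a, |e a| ≤ (B : ℤ)) :
    (fun a => (e a : ℝ)) ∈ intBox n B := by
  classical
  unfold intBox
  refine mem_image.2 ⟨e, ?_, rfl⟩
  rw [Fintype.mem_piFinset]
  intro a
  rw [Finset.mem_Icc]
  exact abs_le.1 (he a)

theorem poly_compact {n : ℕ} {J : Type} [Fintype J] (ℓ : J → Fin n → ℝ) (g : J → ℝ) (C : ℝ)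
    (h : ∀ x : Fin n → ℝ, (∀ j, g j ≤ ∑ i, ℓ j i * x i) → ∀ i, 0 < x i ∧ x i ≤ C) :
    ∃ ξ : ℝ, 0 < ξ ∧ ∀ x : Fin n → ℝ, (∀ j, g j ≤ ∑ i, ℓ j i * x i) → ∀ i, ξ ≤ x i := by
  set P : Set (Fin n → ℝ) := {x | ∀ j, g j ≤ ∑ i, ℓ j i * x i} with hP
  have hclosed : IsClosed P := by
    rw [hP, Set.ofPred_forall]
    exact isClosed_iInter fun j => isClosed_le continuous_const (by fun_prop)
  have hcomp : IsCompact P := by
    refine IsCompact.of_isClosed_subset (isCompact_Icc (a := fun _ : Fin n => (0 : ℝ))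
      (b := fun _ => C)) hclosed ?_
    intro x hx
    exact ⟨fun i => (h x hx i).1.le, fun i => (h x hx i).2⟩
  rcases P.eq_empty_or_nonempty with hE | hN
  · refine ⟨1, one_pos, fun x hx => ?_⟩
    have : x ∈ P := hx
    rw [hE] at this
    exact absurd this (Set.notMem_empty _)
  · rcases isEmpty_or_nonempty (Fin n) with hn | hn
    · exact ⟨1, one_pos, fun x _ i => (hn.false i).elim⟩
    · have h1 : ∀ i : Fin n, ∃ y ∈ P, ∀ x ∈ P, y i ≤ x i := by
        intro i
        obtain ⟨y, hy, hy'⟩ := hcomp.exists_isMinOn hN (continuous_apply i).continuousOn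
        exact ⟨y, hy, fun x hx => hy' hx⟩
      choose y hy hy' using h1
      obtain ⟨i₀, hi₀⟩ := Finite.exists_min fun i => y i i
      exact ⟨y i₀ i₀, (h _ (hy i₀) i₀).1, fun x hx i => (hi₀ i).trans (hy' i x hx)⟩

theorem trap_exists (hP : PieceSpec) {d : ℕ} (hd : 1 ≤ d) (R : Network d)
    (hR : IsWeaklyReversible R) (k : (Fin d → ℕ) × (Fin d → ℕ) → ℝ) (hk : ∀ r ∈ R, 0 < k r)
    (c : Fin d → ℝ) (hc : ∀ i, 0 < c i) :
    ∃ (τ : Type) (_ : Fintype τ) (𝒱 : τ → Set ((Fin d → ℝ) × ℝ)) (h : τ → ℝ → ℝ) (s₀ : ℝ),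
      Trap 𝒱 h s₀ c (field R k) (stoichSubspace R) := by
  obtain ⟨B0, δ, -, -, hdom⟩ := dominance R hR k hk
  obtain ⟨J, hJ, ℓ, g, g', C, H₀, -, -, hg, hpos, hcov, hact⟩ :=
    polytopes_of_piece hP d hd (intBox d B0) δ
  obtain ⟨H₁, hH₁, hcH⟩ := hcov c hc
  have hmemK : ∀ s, ∀ x ∈ Kset (fun j : J => ({(-ℓ j, 0)} : Set ((Fin d → ℝ) × ℝ)))
      (fun j s => -g j s) s, ∀ j, g j s ≤ ∑ i, ℓ j i * x i := by
    intro s x hx j
    have := hx.2 j _ rfl
    rw [F_neg] at this
    linarith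
  refine ⟨J, hJ, fun j => {(-ℓ j, 0)}, fun j s => -g j s, H₁, ?_, ?_, ?_, ?_, ?_, ?_⟩
  · intro j
    refine strictMonoOn_of_deriv_pos (convex_Ici H₁) ?_ ?_
    · intro s hs
      exact ((hg j s (hH₁.trans hs)).1.continuousAt.continuousWithinAt).neg
    · intro s hs
      rw [interior_Ici] at hs
      have h1 := (hg j s (hH₁.trans (le_of_lt hs)))
      rw [h1.1.fun_neg.deriv]
      linarith [h1.2]
  · intro j s hs
    exact ((hg j s (hH₁.trans hs)).1.continuousAt.continuousWithinAt).neg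
  · intro j ξ Ξ M _
    exact (Set.finite_singleton _).subset fun p hp => hp.1
  · intro s hs
    obtain ⟨ξ, hξ, h1⟩ := poly_compact ℓ (fun j => g j s) (C s)
      (hpos s (hH₁.trans hs))
    refine ⟨ξ, C s, hξ, fun x hx a => ⟨h1 x (hmemK s x hx) a, ?_⟩⟩
    exact (hpos s (hH₁.trans hs) x (hmemK s x hx) a).2
  · intro x hx
    obtain ⟨H₂, -, h2⟩ := hcov x hx
    refine ⟨max H₁ H₂, le_max_left _ _, hx, ?_⟩
    rintro j p rfl
    rw [F_neg]
    have := h2 _ (le_max_right H₁ H₂) j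
    linarith
  · rintro s hs x hx hxS j p rfl hact'
    rw [F_neg] at hact'
    have heq : ∑ i, ℓ j i * x i = g j s := by linarith
    refine hdom (-ℓ j) x hx.1 ?_ ?_
    · intro e he hpos'
      have h3 := hact s (hH₁.trans hs) x (hmemK s x hx) j heq _ (mem_intBox he) (by
        unfold dz at hpos'
        simp only [Pi.neg_apply, mul_neg, sum_neg_distrib] at hpos'
        linarith)
      exact h3
    · by_contra hcon
      push Not at hcon
      have hperp : ∀ y ∈ stoichSubspace R, ∑ i, ℓ j i * y i = 0 := by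
        intro y hy
        unfold stoichSubspace at hy
        induction hy using Submodule.span_induction with
        | mem y hy =>
          obtain ⟨r, hr, rfl⟩ := hy
          have := hcon r hr
          simp only [Pi.neg_apply, neg_mul, sum_neg_distrib] at this
          linarith
        | zero => simp
        | add y z _ _ hy hz =>
          simp only [Pi.add_apply, mul_add, sum_add_distrib, hy, hz, add_zero]
        | smul a y _ hy =>
          simp only [Pi.smul_apply, smul_eq_mul]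
          rw [← mul_zero a, ← hy, mul_sum]
          exact sum_congr rfl fun i _ => by ring
      have h4 := hperp _ hxS
      simp only [Pi.sub_apply, mul_sub, sum_sub_distrib] at h4
      have h5 := hcH s hs j
      linarith

theorem contDiff_field {d : ℕ} (R : Network d) (k : (Fin d → ℕ) × (Fin d → ℕ) → ℝ) :
    ContDiff ℝ 1 (field R k) := by
  unfold field
  fun_prop

theorem field_mem {d : ℕ} (R : Network d) (k : (Fin d → ℕ) × (Fin d → ℕ) → ℝ)
    (x : Fin d → ℝ) : field R k x ∈ stoichSubspace R := by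
  unfold field
  exact Submodule.sum_mem _ fun r hr =>
    Submodule.smul_mem _ _ (Submodule.subset_span ⟨r, hr, rfl⟩)

theorem final (hP : PieceSpec)
    (d : ℕ) (hd : 1 ≤ d) (R : Network d) (hR : IsWeaklyReversible R)
    (k : (Fin d → ℕ) × (Fin d → ℕ) → ℝ) (hk : ∀ r ∈ R, 0 < k r)
    (c : Fin d → ℝ) (hc : ∀ i, 0 < c i) :
    ∃ K : Set (Fin d → ℝ), K ⊆ positiveClass R c ∧ K.Nonempty ∧ IsCompact K ∧ Convex ℝ K ∧
      (∀ x : ℝ → (Fin d → ℝ), IsForwardSolution (field R k) x → x 0 ∈ K →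
        ∀ t : ℝ, 0 ≤ t → x t ∈ K) ∧
      (∀ x₀ ∈ positiveClass R c,
        (∃ x : ℝ → (Fin d → ℝ), IsForwardSolution (field R k) x ∧ x 0 = x₀) ∧
        (∀ x x' : ℝ → (Fin d → ℝ), IsForwardSolution (field R k) x →
          IsForwardSolution (field R k) x' → x 0 = x₀ → x' 0 = x₀ →
          ∀ t : ℝ, 0 ≤ t → x t = x' t) ∧
        (∀ x : ℝ → (Fin d → ℝ), IsForwardSolution (field R k) x → x 0 = x₀ →
          (∀ t : ℝ, 0 ≤ t → ∀ i, 0 < x t i) ∧
          ∃ T : ℝ, 0 ≤ T ∧ ∀ t : ℝ, T ≤ t → x t ∈ K)) := by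
  obtain ⟨τ, _, 𝒱, h, s₀, T⟩ := trap_exists hP hd R hR k hk c hc
  exact T.main (contDiff_field R k) (field_mem R k) hc

end Crest.Agent.Perm122
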