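import Mathlib

/-! S0122, part LADDER: a ladder of cells with wide cells around the special values. -/

set_option autoImplicit false

open Finset

namespace Crest.Agent.Perm122

namespace Ladder

/-- properties of one step of the ladder -/
structure IsStep (ρ d : ℝ) (G : Finset ℝ) (t v t' : ℝ) : Prop where
  lt1 : t < v
  lt2 : v < t'
  far : ∀ g ∈ G, ρ ≤ |t' - g|
  cell : (v ∈ G ∧ t' = v + ρ ∧ t = v - ρ) ∨
    ((∀ g ∈ G, ρ ≤ |v - g|) ∧ t' ≤ v + d ∧ v - d ≤ t)
  hit : ∀ g ∈ G, t < g → g < t' → g = v
  prog : t + 2 * d ≤ t' ∨ ∃ g ∈ G, t' = g - ρ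
  prog' : (∃ g ∈ G, t = g - ρ) → t + 2 * d ≤ t'

theorem step (ρ d : ℝ) (hd : 0 < d) (hρ : 2 * d ≤ ρ) (G : Finset ℝ)
    (hsep : ∀ g ∈ G, ∀ g' ∈ G, g ≠ g' → 4 * ρ ≤ |g - g'|) (t : ℝ)
    (ht : ∀ g ∈ G, ρ ≤ |t - g|) : ∃ v t', IsStep ρ d G t v t' := by
  have hρ0 : 0 < ρ := by linarith
  by_cases hne : (G.filter (fun g => t < g)).Nonempty
  · -- next special value
    obtain ⟨g, hgm, hgmin⟩ : ∃ g ∈ G.filter (fun g => t < g),
        ∀ g' ∈ G.filter (fun g => t < g), g ≤ g' :=
      ⟨_, Finset.min'_mem _ hne, fun g' hg' => Finset.min'_le _ _ hg'⟩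
    rw [Finset.mem_filter] at hgm
    obtain ⟨hgG, htg⟩ := hgm
    have hgt : ρ ≤ g - t := by
      have := ht g hgG
      rwa [abs_sub_comm, abs_of_pos (by linarith)] at this
    -- dichotomy for the other special values
    have hoth : ∀ g' ∈ G, g' ≤ t - ρ ∨ g' = g ∨ g + 4 * ρ ≤ g' := by
      intro g' hg'
      by_cases h1 : t < g'
      · right
        have h2 := hgmin g' (by rw [Finset.mem_filter]; exact ⟨hg', h1⟩)
        by_cases h3 : g' = g
        · left; exact h3
        · right
          have h4 := hsep g' hg' g hgG h3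
          rw [abs_of_nonneg (by linarith)] at h4
          linarith
      · left
        have h2 := ht g' hg'
        rw [abs_of_nonneg (by linarith)] at h2
        linarith
    rcases eq_or_lt_of_le hgt with heq | hlt
    · -- special cell
      refine ⟨g, g + ρ, ?_, ?_, ?_, ?_, ?_, ?_, ?_⟩
      · exact htg
      · linarith
      · intro g' hg'
        rcases hoth g' hg' with h | h | h
        · rw [abs_of_nonneg (by linarith)]; linarith
        · subst h; rw [abs_of_nonneg (by linarith)]; linarith
        · rw [abs_sub_comm, abs_of_nonneg (by linarith)]; linarith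
      · left; exact ⟨hgG, rfl, by linarith⟩
      · intro g' hg' h1 h2
        rcases hoth g' hg' with h | h | h
        · linarith
        · exact h
        · linarith
      · left; linarith
      · intro _; linarith
    · by_cases h2d : g - t ≤ ρ + 2 * d
      · refine ⟨(t + g - ρ) / 2, g - ρ, ?_, ?_, ?_, ?_, ?_, ?_, ?_⟩
        · linarith
        · linarith
        · intro g' hg'
          rcases hoth g' hg' with h | h | h
          · rw [abs_of_nonneg (by linarith)]; linarith
          · subst h; rw [abs_sub_comm, abs_of_nonneg (by linarith)]; linarith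
          · rw [abs_sub_comm, abs_of_nonneg (by linarith)]; linarith
        · right
          refine ⟨?_, by linarith, by linarith⟩
          intro g' hg'
          rcases hoth g' hg' with h | h | h
          · rw [abs_of_nonneg (by linarith)]; linarith
          · subst h; rw [abs_sub_comm, abs_of_nonneg (by linarith)]; linarith
          · rw [abs_sub_comm, abs_of_nonneg (by linarith)]; linarith
        · intro g' hg' h1 h2
          rcases hoth g' hg' with h | h | h
          · linarith
          · linarith
          · linarith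
        · right; exact ⟨g, hgG, rfl⟩
        · rintro ⟨g', hg', h'⟩
          rcases hoth g' hg' with h | h | h
          · linarith
          · subst h; linarith
          · linarith
      · push Not at h2d
        refine ⟨t + d, t + 2 * d, ?_, ?_, ?_, ?_, ?_, ?_, ?_⟩
        · linarith
        · linarith
        · intro g' hg'
          rcases hoth g' hg' with h | h | h
          · rw [abs_of_nonneg (by linarith)]; linarith
          · subst h; rw [abs_sub_comm, abs_of_nonneg (by linarith)]; linarith
          · rw [abs_sub_comm, abs_of_nonneg (by linarith)]; linarith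
        · right
          refine ⟨?_, by linarith, by linarith⟩
          intro g' hg'
          rcases hoth g' hg' with h | h | h
          · rw [abs_of_nonneg (by linarith)]; linarith
          · subst h; rw [abs_sub_comm, abs_of_nonneg (by linarith)]; linarith
          · rw [abs_sub_comm, abs_of_nonneg (by linarith)]; linarith
        · intro g' hg' h1 h2
          rcases hoth g' hg' with h | h | h
          · linarith
          · linarith
          · linarith
        · left; exact le_refl _
        · intro _; exact le_refl _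
  · have hall : ∀ g' ∈ G, g' ≤ t - ρ := by
      intro g' hg'
      have h1 : g' ≤ t := by
        by_contra h
        exact hne ⟨g', by rw [Finset.mem_filter]; exact ⟨hg', not_le.mp h⟩⟩
      have h2 := ht g' hg'
      rw [abs_of_nonneg (by linarith)] at h2
      linarith
    refine ⟨t + d, t + 2 * d, ?_, ?_, ?_, ?_, ?_, ?_, ?_⟩
    · linarith
    · linarith
    · intro g' hg'
      have := hall g' hg'
      rw [abs_of_nonneg (by linarith)]; linarith
    · right
      refine ⟨?_, by linarith, by linarith⟩
      intro g' hg'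
      have := hall g' hg'
      rw [abs_of_nonneg (by linarith)]; linarith
    · intro g' hg' h1 h2
      have := hall g' hg'
      linarith
    · left; exact le_refl _
    · intro _; exact le_refl _

end Ladder

open Ladder in
theorem ladder (v₀ ρ d Y : ℝ) (hd : 0 < d) (hρ : 2 * d ≤ ρ) (G : Finset ℝ) (hv₀ : v₀ ∈ G)
    (hG : ∀ g ∈ G, v₀ ≤ g) (hsep : ∀ g ∈ G, ∀ g' ∈ G, g ≠ g' → 4 * ρ ≤ |g - g'|) :
    ∃ (L : ℕ) (v t : ℕ → ℝ), 0 < L ∧ v 0 = v₀ ∧ (∀ i < L, v i < t i ∧ t i < v (i + 1)) ∧
      Y ≤ t (L - 1) ∧ (∀ g ∈ G, ∃ i < L, v i = g) ∧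
      ∀ i ≤ L, (v i ∈ G ∧ (i < L → t i = v i + ρ) ∧ (0 < i → t (i - 1) = v i - ρ)) ∨
        ((∀ g ∈ G, ρ ≤ |v i - g|) ∧ (i < L → t i ≤ v i + d) ∧ (0 < i → v i - d ≤ t (i - 1))) := by
  have hρ0 : 0 < ρ := by linarith
  -- the set of admissible right endpoints
  let S := {t : ℝ // ∀ g ∈ G, ρ ≤ |t - g|}
  have hstep : ∀ s : S, ∃ (p : ℝ × S), IsStep ρ d G s.1 p.1 p.2.1 := by
    intro s
    obtain ⟨v, t', h⟩ := step ρ d hd hρ G hsep s.1 s.2
    exact ⟨(v, ⟨t', h.far⟩), h⟩
  choose nx hnx using hstep
  have h0 : ∀ g ∈ G, ρ ≤ |(v₀ + ρ) - g| := by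
    intro g hg
    by_cases h : g = v₀
    · subst h; rw [abs_of_nonneg (by linarith)]; linarith
    · have h1 := hG g hg
      have h2 := hsep g hg v₀ hv₀ h
      rw [abs_of_nonneg (by linarith)] at h2
      rw [abs_sub_comm, abs_of_nonneg (by linarith)]; linarith
  let s : ℕ → S := fun i => Nat.rec ⟨v₀ + ρ, h0⟩ (fun _ s => (nx s).2) i
  let t : ℕ → ℝ := fun i => (s i).1
  let v : ℕ → ℝ := fun i => match i with
    | 0 => v₀
    | i + 1 => (nx (s i)).1
  have hIs : ∀ i, IsStep ρ d G (t i) (v (i + 1)) (t (i + 1)) := fun i => hnx (s i)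
  have ht0 : t 0 = v₀ + ρ := rfl
  have hv0 : v 0 = v₀ := rfl
  have hmono1 : ∀ i, t i < t (i + 1) := fun i => lt_trans (hIs i).lt1 (hIs i).lt2
  have hmono : StrictMono t := strictMono_nat_of_lt_succ hmono1
  have h2step : ∀ i, t i + 2 * d ≤ t (i + 2) := by
    intro i
    rcases (hIs i).prog with h | h
    · have := hmono1 (i + 1)
      have h' : t (i + 1 + 1) = t (i + 2) := rfl
      linarith
    · have h3 := (hIs (i + 1)).prog' h
      have := hmono1 i
      have h' : t (i + 1 + 1) = t (i + 2) := rfl
      linarith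
  have hgrow : ∀ n : ℕ, t 0 + 2 * d * n ≤ t (2 * n) := by
    intro n
    induction n with
    | zero => simp
    | succ n ih =>
      have := h2step (2 * n)
      have h' : t (2 * (n + 1)) = t (2 * n + 2) := by congr 1
      rw [h']
      push_cast
      linarith
  have hunb : ∀ Z : ℝ, ∃ N, Z ≤ t N := by
    intro Z
    obtain ⟨n, hn⟩ := exists_nat_ge ((Z - t 0) / (2 * d))
    refine ⟨2 * n, le_trans ?_ (hgrow n)⟩
    rw [div_le_iff₀ (by linarith)] at hn
    linarith
  obtain ⟨Z, hZ⟩ : ∃ Z, ∀ g ∈ G, g ≤ Z := ⟨G.max' ⟨v₀, hv₀⟩, fun g hg => Finset.le_max' _ _ hg⟩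
  obtain ⟨N, hN⟩ := hunb (max Y (Z + 1))
  have hNY : Y ≤ t N := le_trans (le_max_left _ _) hN
  have hNZ : Z + 1 ≤ t N := le_trans (le_max_right _ _) hN
  refine ⟨N + 1, v, t, Nat.succ_pos _, hv0, ?_, ?_, ?_, ?_⟩
  · intro i _
    refine ⟨?_, (hIs i).lt1⟩
    cases i with
    | zero => rw [hv0, ht0]; linarith
    | succ i => exact (hIs i).lt2
  · simpa using hNY
  · intro g hg
    -- minimal index with g < t i
    have hex : ∃ i, g < t i := ⟨N, by have := hZ g hg; linarith⟩
    classical
    let i := Nat.find hex
    have hi : g < t i := Nat.find_spec hex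
    have himin : ∀ j < i, ¬ g < t j := fun j hj => Nat.find_min hex hj
    have hiN : i ≤ N := Nat.find_min' hex (by have := hZ g hg; linarith)
    refine ⟨i, by omega, ?_⟩
    have key : ∀ m, i = m → v m = g := by
      intro m hm
      cases m with
      | zero =>
        rw [hm, ht0] at hi
        rw [hv0]
        by_contra hne
        have h1 := hG g hg
        have h2 := hsep g hg v₀ hv₀ (fun h => hne h.symm)
        rw [abs_of_nonneg (by linarith)] at h2
        linarith
      | succ m =>
        have h1 : t m ≤ g := not_lt.mp (himin m (by omega))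
        have h2 : t m ≠ g := by
          intro h
          have := (s m).2 g hg
          have h3 : (s m).1 = t m := rfl
          rw [h3, h, sub_self, abs_zero] at this
          linarith
        rw [hm] at hi
        exact ((hIs m).hit g hg (lt_of_le_of_ne h1 h2) hi).symm
    exact key i rfl
  · intro i _
    cases i with
    | zero =>
      left
      refine ⟨by rw [hv0]; exact hv₀, fun _ => by rw [ht0, hv0], fun h => absurd h (lt_irrefl 0)⟩
    | succ i =>
      rcases (hIs i).cell with ⟨h1, h2, h3⟩ | ⟨h1, h2, h3⟩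
      · left
        exact ⟨h1, fun _ => h2, fun _ => h3⟩
      · right
        exact ⟨h1, fun _ => h2, fun _ => h3⟩

end Crest.Agent.Perm122
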