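import Mathlib
import Crest.Agent.Perm122.Defs

/-! S0122, part PIECE: one piece of the polytope, from `tree` with one root coordinate.
The statement of `tree` is a hypothesis here (`TreeStatement`); see Piece.lean. -/

set_option autoImplicit false

open Finset

namespace Crest.Agent.Perm122

/-- the statement of `tree` (file Tree.lean) -/
def TreeStatement : Prop :=
  ∀ (r p : ℕ), 1 ≤ p → ∀ (𝓕 : Finset (ℕ → ℝ)) (Λ : ℝ),
    ∃ (𝓓 : Finset (ℕ → ℝ)) (A : ℝ), 1 ≤ A ∧
    ∀ (w : ℕ → ℝ) (d : ℝ), 0 < d → Sep p 𝓓 w (A * d) →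
    ∃ (ι : Type) (_ : Fintype ι) (W : ι → ℕ → ℝ) (κ : ι → ℝ → ℝ) (i₀ : ι) (M : ℝ),
      (∀ i, ∀ j < p, W i j = w j) ∧ (∀ i j, p ≤ j → j < p + r → W i (j - 1) ≤ W i j) ∧
      (∀ j, p ≤ j → j < p + r → W i₀ j = w (p - 1)) ∧
      (∀ i, ExpSum (w (p - 1) + d) (κ i)) ∧
      (∀ H, 0 ≤ H → κ i₀ H ≤ M * Real.exp (-(H * (w (p - 1) + 2 * d)))) ∧
      ∀ ε > 0, ∃ ε' > 0, ∃ H₀ > 0, ∀ H ≥ H₀, ∀ σ : ℕ → ℝ, (∀ j < p, |σ j - w j| ≤ 2 * d) →
        (∀ j, p ≤ j → j < p + r → σ (j - 1) ≤ σ j) → (∀ j < p + r, σ j ≤ Λ) →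
        Compat p 𝓓 w σ ε → ∀ i,
        (∀ i', ∑ j ∈ Ico p (p + r), W i j * Real.exp (-(H * σ j)) + κ i H
          ≤ ∑ j ∈ Ico p (p + r), W i' j * Real.exp (-(H * σ j)) + κ i' H) →
        Compat (p + r) 𝓕 (W i) σ ε'

namespace Piece

/-- extension by zero -/
noncomputable def ext {q : ℕ} (D : Fin q → ℝ) : ℕ → ℝ := fun j => if h : j < q then D ⟨j, h⟩ else 0

theorem ext_val {q : ℕ} (D : Fin q → ℝ) (j : Fin q) : ext D j = D j := by
  unfold ext
  simp

theorem ev_ext {q : ℕ} (D : Fin q → ℝ) (w : ℕ → ℝ) :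
    ev q (ext D) w = ∑ j : Fin q, D j * w j := by
  unfold ev
  rw [Finset.sum_range]
  exact Finset.sum_congr rfl fun j _ => by rw [ext_val]

theorem exists_min_pos (S : Finset (ℕ → ℝ)) : ∃ m > 0, ∀ D ∈ S, D 0 = 0 ∨ m ≤ |D 0| := by
  classical
  induction S using Finset.induction_on with
  | empty => exact ⟨1, one_pos, by simp⟩
  | insert D S _ ih =>
    obtain ⟨m, hm, h⟩ := ih
    by_cases hD : D 0 = 0
    · refine ⟨m, hm, fun E hE => ?_⟩
      rcases Finset.mem_insert.mp hE with rfl | hE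
      · exact Or.inl hD
      · exact h E hE
    · refine ⟨min m |D 0|, lt_min hm (abs_pos.mpr hD), fun E hE => ?_⟩
      rcases Finset.mem_insert.mp hE with rfl | hE
      · exact Or.inr (min_le_right _ _)
      · rcases h E hE with h1 | h1
        · exact Or.inl h1
        · exact Or.inr (le_trans (min_le_left _ _) h1)

theorem expsum_props {s b : ℝ} (hsb : s < b) {f : ℝ → ℝ} (hf : ExpSum b f) :
    ∃ f' : ℝ → ℝ, Continuous f' ∧ ∃ H₀ > 0, ∀ H ≥ H₀, 0 ≤ f H ∧
      f H ≤ Real.exp (-(s * H)) / 2 ∧ HasDerivAt f (f' H) H ∧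
      |f' H| ≤ Real.exp (-(s * H)) / 2 := by
  obtain ⟨n, c, θ, hc, hθ, hf⟩ := hf
  have hbs : 0 < b - s := by linarith
  set C : ℝ := ∑ i, c i * (1 + |θ i|) with hC
  have hC0 : 0 ≤ C := Finset.sum_nonneg fun i _ => mul_nonneg (hc i) (by positivity)
  refine ⟨fun H => ∑ i, c i * (Real.exp (-(H * θ i)) * (-θ i)), ?_,
    max 1 (2 * C / (b - s)), lt_of_lt_of_le one_pos (le_max_left _ _), ?_⟩
  · fun_prop
  intro H hH
  have hH1 : 1 ≤ H := le_trans (le_max_left _ _) hH
  have hH2 : 2 * C / (b - s) ≤ H := le_trans (le_max_right _ _) hH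
  have hu : 2 * C ≤ H * (b - s) := by rwa [div_le_iff₀ hbs] at hH2
  -- the small factor
  have hsmall : C * Real.exp (-(H * (b - s))) ≤ 1 / 2 := by
    have h1 : H * (b - s) + 1 ≤ Real.exp (H * (b - s)) := Real.add_one_le_exp _
    have h2 : C * 2 ≤ Real.exp (H * (b - s)) := by linarith
    have h3 : Real.exp (H * (b - s)) * Real.exp (-(H * (b - s))) = 1 := by
      rw [← Real.exp_add, add_neg_cancel, Real.exp_zero]
    have h4 := Real.exp_pos (-(H * (b - s)))
    nlinarith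
  have hterm : ∀ i, Real.exp (-(H * θ i)) ≤ Real.exp (-(s * H)) * Real.exp (-(H * (b - s))) := by
    intro i
    rw [← Real.exp_add]
    apply Real.exp_le_exp.mpr
    have := mul_le_mul_of_nonneg_left (hθ i) (by linarith : (0 : ℝ) ≤ H)
    nlinarith
  have hexp := Real.exp_pos (-(s * H))
  have hbig : (∑ i, c i * (1 + |θ i|) * Real.exp (-(H * θ i))) ≤ Real.exp (-(s * H)) / 2 := by
    calc (∑ i, c i * (1 + |θ i|) * Real.exp (-(H * θ i)))
        ≤ ∑ i, c i * (1 + |θ i|) * (Real.exp (-(s * H)) * Real.exp (-(H * (b - s)))) :=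
          Finset.sum_le_sum fun i _ =>
            mul_le_mul_of_nonneg_left (hterm i) (mul_nonneg (hc i) (by positivity))
      _ = (C * Real.exp (-(H * (b - s)))) * Real.exp (-(s * H)) := by
          rw [hC, ← Finset.sum_mul]; ring
      _ ≤ 1 / 2 * Real.exp (-(s * H)) := mul_le_mul_of_nonneg_right hsmall hexp.le
      _ = Real.exp (-(s * H)) / 2 := by ring
  refine ⟨?_, ?_, ?_, ?_⟩
  · rw [hf]
    exact Finset.sum_nonneg fun i _ => mul_nonneg (hc i) (Real.exp_pos _).le
  · rw [hf]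
    refine le_trans (Finset.sum_le_sum fun i _ => ?_) hbig
    have h1 := Real.exp_pos (-(H * θ i))
    have h2 : c i ≤ c i * (1 + |θ i|) := by nlinarith [hc i, abs_nonneg (θ i)]
    exact mul_le_mul_of_nonneg_right h2 h1.le
  · have hfe : f = fun H => ∑ i, c i * Real.exp (-(H * θ i)) := funext hf
    rw [hfe]
    have : HasDerivAt (fun H : ℝ => ∑ i, c i * Real.exp (-(H * θ i)))
        (∑ i, c i * (Real.exp (-(H * θ i)) * (-θ i))) H := by
      apply HasDerivAt.fun_sum
      intro i _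
      apply HasDerivAt.const_mul
      apply HasDerivAt.exp
      have h1 : HasDerivAt (fun H : ℝ => -(H * θ i)) (-(1 * θ i)) H :=
        ((hasDerivAt_id H).mul_const (θ i)).neg
      simpa using h1
    exact this
  · refine le_trans (Finset.abs_sum_le_sum_abs _ _) (le_trans (Finset.sum_le_sum fun i _ => ?_) hbig)
    have h1 := Real.exp_pos (-(H * θ i))
    rw [abs_mul, abs_mul, abs_neg, abs_of_nonneg (hc i), abs_of_pos h1]
    have h2 : c i * |θ i| ≤ c i * (1 + |θ i|) := by nlinarith [hc i, abs_nonneg (θ i)]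
    calc c i * (Real.exp (-(H * θ i)) * |θ i|) = c i * |θ i| * Real.exp (-(H * θ i)) := by ring
      _ ≤ c i * (1 + |θ i|) * Real.exp (-(H * θ i)) := mul_le_mul_of_nonneg_right h2 h1.le

/-- swapping two entries in the wrong order decreases the sum -/
theorem swap_sum {q : ℕ} (W x : Fin q → ℝ) (a b : Fin q) (hab : a ≠ b) :
    ∑ j, W j * x (Equiv.swap a b j) = ∑ j, W j * x j - (W a - W b) * (x a - x b) := by
  classical
  have h1 : ∑ j, (W j * x (Equiv.swap a b j) - W j * x j) =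
      (W a * x b - W a * x a) + (W b * x a - W b * x b) := by
    rw [← Finset.sum_subset (Finset.subset_univ {a, b})]
    · rw [Finset.sum_pair hab, Equiv.swap_apply_left, Equiv.swap_apply_right]
    · intro j _ hj
      simp only [Finset.mem_insert, Finset.mem_singleton, not_or] at hj
      rw [Equiv.swap_apply_of_ne_of_ne hj.1 hj.2, sub_self]
  rw [Finset.sum_sub_distrib] at h1
  linarith

end Piece

open Piece in
theorem piece_of (tree : TreeStatement) (q : ℕ) (hq : 0 < q) (s : ℝ) (hs : s = 1 ∨ s = -1) (𝓓 : Finset (Fin q → ℝ))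
    (h𝓓 : ∀ D ∈ 𝓓, ∀ τ : Equiv.Perm (Fin q), D ∘ τ ∈ 𝓓) (Λ : ℝ) :
    ∃ (ι : Type) (_ : Fintype ι) (W : ι → Fin q → ℝ) (κ κ' : ι → ℝ → ℝ) (ε H₀ : ℝ),
      0 < ε ∧ ε ≤ 1 ∧ 0 < H₀ ∧ (∀ i j, s ≤ W i j) ∧ (∃ i₀, ∀ j, W i₀ j = s) ∧
      (∀ i, Continuous (κ' i)) ∧
      (∀ i, ∀ H ≥ H₀, 0 ≤ κ i H ∧ κ i H ≤ Real.exp (-(s * H)) / 2 ∧
        HasDerivAt (κ i) (κ' i H) H ∧ |κ' i H| ≤ Real.exp (-(s * H)) / 2) ∧
      ∀ H ≥ H₀, ∀ x : Fin q → ℝ, (∀ j, Real.exp (-(Λ * H)) ≤ x j) →
        (∀ i, ∀ τ : Equiv.Perm (Fin q),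
          s * Real.exp (-(s * H)) - κ i H ≤ ∑ j, W i j * x (τ j)) →
        ∀ i, ∑ j, W i j * x j = s * Real.exp (-(s * H)) - κ i H →
          ∀ D ∈ 𝓓, 0 < ∑ j, D j * W i j → ε * H ≤ ∑ j, D j * (-Real.log (x j)) := by
  classical
  obtain ⟨r, rfl⟩ : ∃ r, q = 1 + r := ⟨q - 1, by omega⟩
  have hs2 : s * s = 1 := by rcases hs with rfl | rfl <;> norm_num
  obtain ⟨𝓓', A, hA, htree⟩ := tree r 1 le_rfl (𝓓.image Piece.ext) Λ
  obtain ⟨m, hm, hmD⟩ := exists_min_pos 𝓓'
  set d : ℝ := min (m / A) (1 / 8) with hd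
  have hA0 : 0 < A := by linarith
  have hd0 : 0 < d := lt_min (div_pos hm hA0) (by norm_num)
  have hd8 : d ≤ 1 / 8 := min_le_right _ _
  have hAd : A * d ≤ m := by
    have h1 : d ≤ m / A := min_le_left _ _
    rw [le_div_iff₀ hA0] at h1
    linarith
  have habs : ∀ y : ℝ, |y * s| = |y| := by
    intro y
    rw [abs_mul]
    rcases hs with rfl | rfl <;> simp
  have hev1 : ∀ D w : ℕ → ℝ, ev 1 D w = D 0 * w 0 := by
    intro D w; unfold ev; simp
  have hSep : Sep 1 𝓓' (fun _ => s) (A * d) := by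
    intro D hD
    rw [hev1]
    rcases hmD D hD with h | h
    · left; rw [h, zero_mul]
    · right
      rw [habs]; linarith
  obtain ⟨ι, hι, W, κ, i₀, M, hW0, hWmono, hWtie, hκ, -, hmain⟩ :=
    htree (fun _ => s) d hd0 hSep
  obtain ⟨ε', hε', H₁, hH₁, hmain⟩ := hmain (A * d / 2) (by positivity)
  choose κ' hκ'c HH hHH hκ' using
    fun i => expsum_props (s := s) (b := s + d) (by linarith) (hκ i)
  have hlogn : 0 ≤ Real.log (2 * (1 + r)) := by
    apply Real.log_nonneg
    have : (0 : ℝ) ≤ r := Nat.cast_nonneg _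
    linarith
  have hsumHH : 0 ≤ ∑ i, HH i := Finset.sum_nonneg fun i _ => (hHH i).le
  have hlogd : 0 ≤ Real.log (2 * (1 + r)) / (2 * d) := div_nonneg hlogn (by linarith)
  -- monotonicity of `W i`
  have hWm : ∀ i, ∀ a b : ℕ, a ≤ b → b < 1 + r → W i a ≤ W i b := by
    intro i a b hab
    induction b, hab using Nat.le_induction with
    | base => intro _; exact le_refl _
    | succ b hab ih =>
      intro hb
      have h1 := ih (by omega)
      have h2 := hWmono i (b + 1) (by omega) hb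
      simp only [Nat.add_sub_cancel] at h2
      exact le_trans h1 h2
  have hW00 : ∀ i, W i 0 = s := fun i => hW0 i 0 (by norm_num)
  have hWs : ∀ i, ∀ j : ℕ, j < 1 + r → s ≤ W i j := by
    intro i j hj
    rw [← hW00 i]; exact hWm i 0 j (Nat.zero_le _) hj
  have hWi₀ : ∀ j : ℕ, j < 1 + r → W i₀ j = s := by
    intro j hj
    rcases Nat.eq_zero_or_pos j with rfl | hj0
    · exact hW00 i₀
    · exact hWtie j hj0 hj
  refine ⟨ι, hι, fun i j => W i j, κ, κ', min ε' 1,
    H₁ + ∑ i, HH i + Real.log (2 * (1 + r)) / (2 * d), lt_min hε' one_pos, min_le_right _ _,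
    by positivity, fun i j => hWs i j j.isLt, ⟨i₀, fun j => hWi₀ j j.isLt⟩, hκ'c, ?_, ?_⟩
  · intro i H hH
    have h1 : HH i ≤ ∑ i, HH i :=
      Finset.single_le_sum (f := HH) (fun i _ => (hHH i).le) (Finset.mem_univ i)
    exact hκ' i H (by linarith)
  intro H hH x hxΛ hcon i hact D hD hDW
  have hHi : ∀ i, HH i ≤ H := by
    intro i
    have h1 : HH i ≤ ∑ i, HH i :=
      Finset.single_le_sum (f := HH) (fun i _ => (hHH i).le) (Finset.mem_univ i)
    linarith
  have hHH₁ : H₁ ≤ H := by linarith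
  have hH0 : 0 < H := by linarith
  have hHlog : Real.log (2 * (1 + r)) ≤ 2 * d * H := by
    have h1 : Real.log (2 * (1 + r)) / (2 * d) ≤ H := by linarith
    rw [div_le_iff₀ (by linarith)] at h1
    linarith
  have hxpos : ∀ j, 0 < x j := fun j => lt_of_lt_of_le (Real.exp_pos _) (hxΛ j)
  -- step A : wrong order is impossible
  have hA1 : ∀ a b : Fin (1 + r), W i a < W i b → x b ≤ x a := by
    intro a b hab
    by_contra hlt
    push Not at hlt
    have hne : a ≠ b := by rintro rfl; exact lt_irrefl _ hab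
    have h1 := hcon i (Equiv.swap a b)
    have h2 := swap_sum (fun j : Fin (1 + r) => W i j) x a b hne
    rw [h2, hact] at h1
    have h3 : 0 < (W i a - W i b) * (x a - x b) := mul_pos_of_neg_of_neg (by linarith) (by linarith)
    linarith
  -- the sorting permutation
  let f : Fin (1 + r) → ℝ ×ₗ ℝ := fun j => toLex (W i j, - x j)
  let τ : Equiv.Perm (Fin (1 + r)) := Tuple.sort f
  have hτ : Monotone (f ∘ τ) := Tuple.monotone_sort f
  have hτ' : ∀ a b : Fin (1 + r), a ≤ b →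
      W i (τ a) < W i (τ b) ∨ (W i (τ a) = W i (τ b) ∧ x (τ b) ≤ x (τ a)) := by
    intro a b hab
    have h1 := hτ hab
    simp only [Function.comp, f] at h1
    rw [Prod.Lex.le_iff] at h1
    rcases h1 with h | ⟨h, h'⟩
    · left; simpa using h
    · right
      refine ⟨by simpa using h, ?_⟩
      have h'' : - x (τ a) ≤ - x (τ b) := by simpa using h'
      linarith
  have hWτm : Monotone ((fun j : Fin (1 + r) => W i j) ∘ τ) := by
    intro a b hab
    rcases hτ' a b hab with h | ⟨h, _⟩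
    · exact h.le
    · exact h.le
  have hWm' : Monotone ((fun j : Fin (1 + r) => W i j) ∘ (1 : Equiv.Perm (Fin (1 + r)))) := by
    intro a b hab
    exact hWm i a b hab b.isLt
  have hWτ : ∀ j : Fin (1 + r), W i (τ j) = W i j := by
    intro j
    have := Tuple.unique_monotone hWτm hWm'
    exact congrFun this j
  have hxτ : ∀ a b : Fin (1 + r), a ≤ b → x (τ b) ≤ x (τ a) := by
    intro a b hab
    rcases hτ' a b hab with h | ⟨_, h⟩
    · exact hA1 _ _ h
    · exact h
  -- the sorted exponents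
  let σ : ℕ → ℝ := fun j => if h : j < 1 + r then -Real.log (x (τ ⟨j, h⟩)) / H else 0
  have hσ : ∀ j : Fin (1 + r), σ j = -Real.log (x (τ j)) / H := by
    intro j
    simp only [σ, j.isLt, dite_true]
  have hσexp : ∀ j : Fin (1 + r), Real.exp (-(H * σ j)) = x (τ j) := by
    intro j
    rw [hσ]
    have : -(H * (-Real.log (x (τ j)) / H)) = Real.log (x (τ j)) := by
      field_simp
    rw [this, Real.exp_log (hxpos _)]
  have hHσ : ∀ j : Fin (1 + r), H * σ j = -Real.log (x (τ j)) := by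
    intro j
    rw [hσ]; field_simp
  -- splitting off the first summand
  have hsplit : ∀ i', ∑ j : Fin (1 + r), W i' j * x (τ j) =
      s * Real.exp (-(H * σ 0)) + ∑ j ∈ Ico 1 (1 + r), W i' j * Real.exp (-(H * σ j)) := by
    intro i'
    have h1 : ∑ j : Fin (1 + r), W i' j * x (τ j) =
        ∑ j ∈ range (1 + r), W i' j * Real.exp (-(H * σ j)) := by
      rw [Finset.sum_range]
      exact Finset.sum_congr rfl fun j _ => by rw [hσexp]
    rw [h1, Finset.range_eq_Ico, Finset.sum_eq_sum_Ico_succ_bot (by omega : 0 < 1 + r), hW00]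
  -- activity after sorting
  have hactτ : ∑ j : Fin (1 + r), W i j * x (τ j) = s * Real.exp (-(s * H)) - κ i H := by
    rw [← hact]
    have h1 : ∑ j : Fin (1 + r), W i j * x (τ j) = ∑ j : Fin (1 + r), W i (τ j) * x (τ j) :=
      Finset.sum_congr rfl fun j _ => by rw [hWτ]
    rw [h1]
    exact Equiv.sum_comp τ (fun j : Fin (1 + r) => W i j * x j)
  -- the first (largest) coordinate
  have h0lt : 0 < 1 + r := by omega
  let z : Fin (1 + r) := ⟨0, h0lt⟩
  have hx0 : ∀ j, x j ≤ x (τ z) := by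
    intro j
    have := hxτ z (τ.symm j) (Fin.mk_le_of_le_val (Nat.zero_le _))
    rwa [Equiv.apply_symm_apply] at this
  have hσ0 : Real.exp (-(H * σ 0)) = x (τ z) := hσexp z
  have hsumle : ∑ j, x j ≤ (1 + r) * x (τ z) := by
    calc ∑ j, x j ≤ ∑ _j : Fin (1 + r), x (τ z) := Finset.sum_le_sum fun j _ => hx0 j
      _ = (1 + r) * x (τ z) := by simp
  have hsumge : x (τ z) ≤ ∑ j, x j :=
    Finset.single_le_sum (f := x) (fun j _ => (hxpos j).le) (Finset.mem_univ _)
  have hκi := hκ' i H (hHi i)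
  have hκ0 := hκ' i₀ H (hHi i₀)
  have hE := Real.exp_pos (-(s * H))
  have htie : s * Real.exp (-(s * H)) - κ i₀ H ≤ s * ∑ j, x j := by
    have h1 := hcon i₀ 1
    have h2 : ∑ j : Fin (1 + r), W i₀ j * x ((1 : Equiv.Perm (Fin (1 + r))) j) = s * ∑ j, x j := by
      rw [Finset.mul_sum]
      exact Finset.sum_congr rfl fun j _ => by rw [hWi₀ j j.isLt]; rfl
    rwa [h2] at h1
  have hWge : s * ∑ j, x j ≤ s * Real.exp (-(s * H)) - κ i H := by
    rw [← hact, Finset.mul_sum]
    exact Finset.sum_le_sum fun j _ => mul_le_mul_of_nonneg_right (hWs i j j.isLt) (hxpos j).le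
  have hsum2 : Real.exp (-(s * H)) / 2 ≤ ∑ j, x j ∧ ∑ j, x j ≤ 2 * Real.exp (-(s * H)) := by
    rcases hs with rfl | rfl
    · constructor
      · linarith [hκ0.2.1]
      · linarith [hκi.1]
    · constructor
      · linarith [hκi.1]
      · linarith [hκ0.2.1]
  have hlow : Real.exp (-(s * H)) ≤ (2 * (1 + r)) * x (τ z) := by linarith [hsum2.1]
  have hup : x (τ z) ≤ (2 * (1 + r)) * Real.exp (-(s * H)) := by
    have hr : (0 : ℝ) ≤ r := Nat.cast_nonneg _
    have h1 : x (τ z) ≤ 2 * Real.exp (-(s * H)) := le_trans hsumge hsum2.2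
    nlinarith [mul_nonneg hr hE.le]
  have hrpos : (0 : ℝ) < 2 * (1 + r) := by
    have : (0 : ℝ) ≤ r := Nat.cast_nonneg _
    linarith
  have hlogz : H * σ 0 = -Real.log (x (τ z)) := hHσ z
  have hlow' : -(s * H) ≤ Real.log (2 * (1 + r)) + Real.log (x (τ z)) := by
    rw [← Real.log_mul hrpos.ne' (hxpos _).ne']
    rw [← Real.log_exp (-(s * H))]
    exact Real.log_le_log hE hlow
  have hup' : Real.log (x (τ z)) ≤ Real.log (2 * (1 + r)) + -(s * H) := by
    have h1 := Real.log_le_log (hxpos _) hup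
    rwa [Real.log_mul hrpos.ne' hE.ne', Real.log_exp] at h1
  have hσs : |σ 0 - s| ≤ 2 * d := by
    have h1 : |H * (σ 0 - s)| ≤ 2 * d * H := by
      rw [abs_le]
      constructor
      · nlinarith
      · nlinarith
    rw [abs_mul, abs_of_pos hH0] at h1
    have h2 : H * |σ 0 - s| ≤ H * (2 * d) := by linarith
    exact le_of_mul_le_mul_left h2 hH0
  have hcompat : Compat (1 + r) (𝓓.image Piece.ext) (W i) σ ε' := by
    refine hmain H hHH₁ σ ?_ ?_ ?_ ?_ i ?_
    · intro j hj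
      have : j = 0 := by omega
      subst this
      exact hσs
    · intro j hj1 hj2
      have h1 : σ (j - 1) = -Real.log (x (τ ⟨j - 1, by omega⟩)) / H := hσ ⟨j - 1, by omega⟩
      have h2 : σ j = -Real.log (x (τ ⟨j, hj2⟩)) / H := hσ ⟨j, hj2⟩
      rw [h1, h2]
      apply div_le_div_of_nonneg_right _ hH0.le
      apply neg_le_neg
      apply Real.log_le_log (hxpos _)
      apply hxτ
      exact Fin.mk_le_mk.mpr (Nat.sub_le _ _)
    · intro j hj
      have h2 : σ j = -Real.log (x (τ ⟨j, hj⟩)) / H := hσ ⟨j, hj⟩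
      rw [h2, div_le_iff₀ hH0]
      have h3 := Real.log_le_log (Real.exp_pos _) (hxΛ (τ ⟨j, hj⟩))
      rw [Real.log_exp] at h3
      linarith
    · intro D' hD' hpos
      rw [hev1] at hpos ⊢
      rcases hmD D' hD' with h | h
      · rw [h, zero_mul] at hpos; exact absurd hpos (lt_irrefl _)
      · have h1 : m ≤ D' 0 * s := by
          have h2 := habs (D' 0)
          rw [abs_of_pos hpos] at h2
          rw [h2]; exact h
        have h3 : D' 0 * σ 0 = (D' 0 * s) * (s * σ 0) := by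
          calc D' 0 * σ 0 = D' 0 * (s * s) * σ 0 := by rw [hs2, mul_one]
            _ = (D' 0 * s) * (s * σ 0) := by ring
        have h4 : 1 / 2 ≤ s * σ 0 := by
          have h5 : s * σ 0 = 1 + s * (σ 0 - s) := by
            rw [mul_sub, hs2]; ring
          have h6 : |s * (σ 0 - s)| ≤ 2 * d := by
            rw [mul_comm, habs]; exact hσs
          have h7 := (abs_le.mp h6).1
          rw [h5]; linarith
        rw [h3]
        nlinarith
    · intro i'
      have h1 := hsplit i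
      have h2 := hsplit i'
      have h3 := hcon i' τ
      rw [hactτ] at h1
      linarith
  have hfin := hcompat (Piece.ext (D ∘ τ)) (Finset.mem_image_of_mem _ (h𝓓 D hD τ)) (by
    rw [ev_ext]
    have h1 : ∑ j : Fin (1 + r), (D ∘ τ) j * W i j = ∑ j : Fin (1 + r), D (τ j) * W i (τ j) :=
      Finset.sum_congr rfl fun j _ => by rw [hWτ]; rfl
    rw [h1, Equiv.sum_comp τ (fun j : Fin (1 + r) => D j * W i j)]
    exact hDW)
  rw [ev_ext] at hfin
  have h1 : (∑ j : Fin (1 + r), (D ∘ τ) j * σ j) * H = ∑ j, D j * (-Real.log (x j)) := by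
    rw [Finset.sum_mul, ← Equiv.sum_comp τ (fun j : Fin (1 + r) => D j * (-Real.log (x j)))]
    apply Finset.sum_congr rfl
    intro j _
    rw [mul_assoc, mul_comm (σ j) H, hHσ]
    rfl
  rw [← h1]
  exact mul_le_mul_of_nonneg_right (le_trans (min_le_left _ _) hfin) hH0.le

end Crest.Agent.Perm122
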