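import Crest.Agent.Perm122.TreeB

/-! S0122, TREE: the inductive construction. -/

set_option autoImplicit false

open Finset

namespace Crest.Agent.Perm122

/-- the conclusion of `tree` at a base -/
def TG (r p : ℕ) (𝓕 𝓓 : Finset (ℕ → ℝ)) (Λ : ℝ) (w : ℕ → ℝ) (d : ℝ) : Prop :=
  ∃ (ι : Type) (_ : Fintype ι) (W : ι → ℕ → ℝ) (κ : ι → ℝ → ℝ) (i₀ : ι) (M : ℝ),
      (∀ i, ∀ j < p, W i j = w j) ∧ (∀ i j, p ≤ j → j < p + r → W i (j - 1) ≤ W i j) ∧
      (∀ j, p ≤ j → j < p + r → W i₀ j = w (p - 1)) ∧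
      (∀ i, ExpSum (w (p - 1) + d) (κ i)) ∧
      (∀ H, 0 ≤ H → κ i₀ H ≤ M * Real.exp (-(H * (w (p - 1) + 2 * d)))) ∧
      ∀ ε > 0, ∃ ε' > 0, ∃ H₀ > 0, ∀ H ≥ H₀, ∀ σ : ℕ → ℝ, (∀ j < p, |σ j - w j| ≤ 2 * d) →
        (∀ j, p ≤ j → j < p + r → σ (j - 1) ≤ σ j) → (∀ j < p + r, σ j ≤ Λ) →
        Compat p 𝓓 w σ ε → ∀ i,
        (∀ i', ∑ j ∈ Ico p (p + r), W i j * Real.exp (-(H * σ j)) + κ i H
          ≤ ∑ j ∈ Ico p (p + r), W i' j * Real.exp (-(H * σ j)) + κ i' H) →
        Compat (p + r) 𝓕 (W i) σ ε'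

theorem tg_zero (p : ℕ) (𝓕 : Finset (ℕ → ℝ)) (Λ : ℝ) (w : ℕ → ℝ) (d : ℝ) :
    TG 0 p 𝓕 𝓕 Λ w d := by
  refine ⟨Unit, inferInstance, fun _ => w, fun _ _ => 0, (), 0, fun _ _ _ => rfl,
    fun _ j h1 h2 => absurd h2 (by omega), fun j h1 h2 => absurd h2 (by omega),
    fun _ => ExpSum.zero _, fun H _ => by simp, ?_⟩
  intro ε hε
  exact ⟨ε, hε, 1, one_pos, fun H _ σ _ _ _ h _ _ => h⟩

theorem ev_update_of_le {p : ℕ} (D w : ℕ → ℝ) (y : ℝ) :
    ev p D (Function.update w p y) = ev p D w :=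
  ev_congr fun j hj => Function.update_of_ne (by omega) _ _

theorem ev_update_succ {p : ℕ} (D w : ℕ → ℝ) (y : ℝ) :
    ev (p + 1) D (Function.update w p y) = ev p D w + D p * y := by
  rw [ev_succ, ev_update_of_le, Function.update_self]

theorem ev_update_gD {p : ℕ} {D : ℕ → ℝ} (h : D p ≠ 0) (w : ℕ → ℝ) (y : ℝ) :
    ev (p + 1) D (Function.update w p y) = D p * (y - ev p (gD p D) w) := by
  rw [ev_gD h, Function.update_self, ev_update_of_le]

/-- Compatibility passes to the child. -/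
theorem compat_step {p : ℕ} (hp : 1 ≤ p) {𝓓₁ : Finset (ℕ → ℝ)} {c CL d ρ ε η : ℝ}
    {w σ v t : ℕ → ℝ} {L i : ℕ}
    (hc0 : 0 < c) (hc : ∀ D ∈ 𝓓₁, D p ≠ 0 → c ≤ |D p|)
    (hlip : ∀ g ∈ GG p 𝓓₁, ∀ (σ w : ℕ → ℝ) (e : ℝ), (∀ j < p, |σ j - w j| ≤ e) →
      |ev p g σ - ev p g w| ≤ CL * e)
    (hd : 0 < d) (hε : 0 < ε) (hη : η ≤ d) (hρ : (2 * CL + 2) * d ≤ ρ)
    (hlt : ∀ i < L, v i < t i ∧ t i < v (i + 1)) (hv0 : v 0 = w (p - 1))
    (hcov : ∀ g ∈ GG p 𝓓₁, w (p - 1) ≤ ev p g w → ∃ j < L, v j = ev p g w ∧ t j = v j + ρ ∧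
      (0 < j → t (j - 1) = v j - ρ))
    (hiL : i ≤ L) (hσ : ∀ j < p, |σ j - w j| ≤ 2 * d) (hsort : σ (p - 1) ≤ σ p)
    (hlow : ∀ j, j < i → t j - η ≤ σ p) (hup : ∀ j, i < j → j ≤ L → σ p ≤ t (j - 1) + η)
    (hcomp : Compat p (DD p 𝓓₁) w σ ε) :
    Compat (p + 1) 𝓓₁ (Function.update w p (v i)) σ (min (c * d) (min (c * ε) ε)) := by
  obtain ⟨m1, m2, m3, m4, m5⟩ := lad_mono hlt
  intro D hD hpos
  by_cases hDp : D p = 0
  · rw [ev_update_succ, hDp, zero_mul, add_zero] at hpos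
    have h1 := hcomp D (mem_DD_of_zero hD hDp) hpos
    rw [ev_succ, hDp, zero_mul, add_zero]
    exact (min_le_right _ _).trans ((min_le_right _ _).trans h1)
  · rw [ev_update_gD hDp] at hpos
    rw [ev_gD hDp]
    have hgG := gD_mem_GG hD hDp
    set u := ev p (gD p D) w with hu
    set u' := ev p (gD p D) σ with hu'
    have hlipu : |u' - u| ≤ CL * (2 * d) := hlip _ hgG σ w (2 * d) hσ
    have hl1 := (abs_le.1 hlipu).1
    have hl2 := (abs_le.1 hlipu).2
    have hcD := hc D hD hDp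
    rcases lt_or_gt_of_ne hDp with hneg | hpos'
    · -- `D p < 0`
      have hvu : v i < u := by nlinarith
      have hwu : w (p - 1) ≤ u := by
        have := m1 0 i (Nat.zero_le _) hiL
        rw [hv0] at this
        linarith
      obtain ⟨j, hjL, hj1, hj2, hj3⟩ := hcov _ hgG hwu
      have hij : i < j := by
        by_contra hcon
        have := m1 j i (not_lt.1 hcon) hiL
        linarith
      have h1 := hup j hij hjL.le
      rw [hj3 (by omega), hj1] at h1
      have h2 : d ≤ u' - σ p := by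
        rw [← hu] at h1
        linarith
      refine (min_le_left _ _).trans ?_
      rw [abs_of_neg hneg] at hcD
      have h3 : c * d ≤ (-D p) * (u' - σ p) :=
        mul_le_mul hcD h2 hd.le (by linarith)
      linarith
    · have hvu : u < v i := by nlinarith
      rw [abs_of_pos hpos'] at hcD
      by_cases hwu : w (p - 1) ≤ u
      · obtain ⟨j, hjL, hj1, hj2, hj3⟩ := hcov _ hgG hwu
        have hji : j < i := by
          by_contra hcon
          have := m1 i j (not_lt.1 hcon) hjL.le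
          linarith
        have h1 := hlow j hji
        rw [hj2, hj1, ← hu] at h1
        have h2 : d ≤ σ p - u' := by linarith
        refine (min_le_left _ _).trans ?_
        exact mul_le_mul hcD h2 hd.le hpos'.le
      · have h1 := hcomp (tieF p - gD p D) (sub_mem_DD (tie_mem_GG p 𝓓₁) hgG) (by
          rw [ev_sub, ev_tieF hp, ← hu]
          linarith)
        rw [ev_sub, ev_tieF hp, ← hu'] at h1
        have h2 : ε ≤ σ p - u' := by linarith
        refine (min_le_right _ _).trans ((min_le_left _ _).trans ?_)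
        exact mul_le_mul hcD h2 hε.le hpos'.le

/-- separation at the child -/
theorem sep_step {p : ℕ} (hp : 1 ≤ p) {𝓓₁ : Finset (ℕ → ℝ)} {c A₁ A d ρ di : ℝ}
    {w : ℕ → ℝ} {y : ℝ} (hc0 : 0 < c) (hc1 : c ≤ 1) (hc : ∀ D ∈ 𝓓₁, D p ≠ 0 → c ≤ |D p|)
    (hA₁ : 0 ≤ A₁) (hsep : Sep p (DD p 𝓓₁) w (A * d))
    (hdi : 0 ≤ di) (hA : A₁ * di ≤ c * (A * d))
    (hyw : w (p - 1) ≤ y)
    (hy : (∃ g ∈ GG p 𝓓₁, y = ev p g w) ∨
      ((∀ g ∈ GG p 𝓓₁, w (p - 1) ≤ ev p g w → ρ ≤ |y - ev p g w|) ∧ A₁ * di ≤ c * ρ)) :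
    Sep (p + 1) 𝓓₁ (Function.update w p y) (A₁ * di) := by
  intro D hD
  have hAd : 0 ≤ A * d := by
    have h1 : 0 ≤ A₁ * di := mul_nonneg hA₁ hdi
    by_contra hcon
    have h2 : c * (A * d) < 0 := mul_neg_of_pos_of_neg hc0 (not_le.1 hcon)
    linarith
  by_cases hDp : D p = 0
  · rw [ev_update_succ, hDp, zero_mul, add_zero]
    rcases hsep D (mem_DD_of_zero hD hDp) with h | h
    · exact Or.inl h
    · right
      refine le_trans ?_ h
      nlinarith
  · rw [ev_update_gD hDp]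
    have hgG := gD_mem_GG hD hDp
    set u := ev p (gD p D) w with hu
    have hcD := hc D hD hDp
    rw [abs_mul]
    rcases hy with ⟨g, hg, hyg⟩ | ⟨hy1, hy2⟩
    · rcases hsep (g - gD p D) (sub_mem_DD hg hgG) with h | h
      · left
        rw [ev_sub, ← hyg, ← hu] at h
        rw [h, mul_zero]
      · right
        rw [ev_sub, ← hyg, ← hu] at h
        exact hA.trans (mul_le_mul hcD h hAd (abs_nonneg _))
    · right
      have h1 : ρ ≤ |y - u| := by
        by_cases hwu : w (p - 1) ≤ u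
        · exact hy1 _ hgG hwu
        · have h2 := hy1 _ (tie_mem_GG p 𝓓₁) (by rw [ev_tieF hp])
          rw [ev_tieF hp, abs_of_nonneg (sub_nonneg.2 hyw)] at h2
          have h3 := le_abs_self (y - u)
          linarith
      have h3 : 0 ≤ A₁ * di := mul_nonneg hA₁ hdi
      calc A₁ * di ≤ c * ρ := hy2
        _ ≤ c * |y - u| := mul_le_mul_of_nonneg_left h1 hc0.le
        _ ≤ |D p| * |y - u| := mul_le_mul_of_nonneg_right hcD (abs_nonneg _)

theorem step_bound {C m : ℝ} {d : ℝ} (hd : 0 < d) (hm : 0 < m) :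
    ∀ᶠ H : ℝ in Filter.atTop, 2 * (|C| * Real.exp (-(H * d))) ≤ m := by
  have h1 : Filter.Tendsto (fun H : ℝ => 2 * (|C| * Real.exp (-(H * d)))) Filter.atTop
      (nhds (2 * (|C| * 0))) := by
    refine Filter.Tendsto.const_mul _ (Filter.Tendsto.const_mul _ ?_)
    exact Real.tendsto_exp_neg_atTop_nhds_zero.comp
      (Filter.tendsto_id.atTop_mul_const hd)
  rw [mul_zero, mul_zero] at h1
  exact (h1.eventually_lt_const hm).mono fun H hH => hH.le

theorem step_large {C η : ℝ} (hη : 0 < η) :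
    ∀ᶠ H : ℝ in Filter.atTop, C ≤ Real.exp (H * η) :=
  (Real.tendsto_exp_atTop.comp (Filter.tendsto_id.atTop_mul_const hη)).eventually_ge_atTop C

theorem tree_step (r p : ℕ) (hp : 1 ≤ p) (𝓕 𝓓₁ : Finset (ℕ → ℝ)) (Λ A₁ : ℝ) (hA₁ : 1 ≤ A₁)
    (IH : ∀ (w : ℕ → ℝ) (d : ℝ), 0 < d → Sep (p + 1) 𝓓₁ w (A₁ * d) →
      TG r (p + 1) 𝓕 𝓓₁ Λ w d) :
    ∃ A : ℝ, 1 ≤ A ∧ ∀ (w : ℕ → ℝ) (d : ℝ), 0 < d → Sep p (DD p 𝓓₁) w (A * d) →
      TG (r + 1) p 𝓕 (DD p 𝓓₁) Λ w d := by
  classical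
  obtain ⟨c, hc0, hc1, hc⟩ := exists_lower p 𝓓₁
  obtain ⟨CL, hCL0, hlip⟩ := exists_lip p (GG p 𝓓₁)
  obtain ⟨B, hB1, hB2, hB3⟩ : ∃ B : ℝ, 2 * CL + 4 ≤ B ∧ A₁ / c ≤ B ∧ 2 ≤ B :=
    ⟨max (2 * CL + 4) (max (A₁ / c) 2), le_max_left _ _, (le_max_left _ _).trans (le_max_right _ _),
      (le_max_right _ _).trans (le_max_right _ _)⟩
  obtain ⟨A, hAa, hAb⟩ : ∃ A : ℝ, 4 * B ≤ A ∧ A₁ * B / c ≤ A :=
    ⟨max (4 * B) (A₁ * B / c), le_max_left _ _, le_max_right _ _⟩
  rw [div_le_iff₀ hc0] at hB2 hAb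
  refine ⟨A, by linarith, ?_⟩
  intro w d hd hsep
  obtain ⟨ρ, hρdef⟩ : ∃ ρ, ρ = B * d := ⟨_, rfl⟩
  have hρ2 : 2 * d ≤ ρ := by rw [hρdef]; exact mul_le_mul_of_nonneg_right hB3 hd.le
  have hρ3 : (2 * CL + 2) * d ≤ ρ := by
    rw [hρdef]; exact mul_le_mul_of_nonneg_right (by linarith) hd.le
  have hρ0 : 0 < ρ := by linarith
  have hp0 : 0 < p := hp
  set G : Finset ℝ := ((GG p 𝓓₁).image fun g => ev p g w).filter fun x => w (p - 1) ≤ x with hGdef
  have hmemG : ∀ x, x ∈ G ↔ (∃ g ∈ GG p 𝓓₁, ev p g w = x) ∧ w (p - 1) ≤ x := by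
    intro x
    rw [hGdef, mem_filter, mem_image]
  have hv₀G : w (p - 1) ∈ G := (hmemG _).2 ⟨⟨tieF p, tie_mem_GG p 𝓓₁, ev_tieF hp w⟩, le_rfl⟩
  obtain ⟨L, v, t, hL, hv0, hlt, hY, hcovG, halt⟩ := ladder (w (p - 1)) ρ d (Λ + 1) hd hρ2 G
    hv₀G (fun g hg => ((hmemG g).1 hg).2) (by
      intro g hg g' hg' hne
      obtain ⟨⟨f, hf, rfl⟩, -⟩ := (hmemG g).1 hg
      obtain ⟨⟨f', hf', rfl⟩, -⟩ := (hmemG g').1 hg'
      rcases hsep (f - f') (sub_mem_DD hf hf') with h | h
      · rw [ev_sub] at h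
        exact absurd (sub_eq_zero.1 h) hne
      · rw [ev_sub] at h
        refine le_trans ?_ h
        rw [hρdef, ← mul_assoc]
        exact mul_le_mul_of_nonneg_right hAa hd.le)
  obtain ⟨m1, m2, m3, m4, m5⟩ := lad_mono hlt
  have hspec : ∀ i ≤ L, v i ∈ G →
      (i < L → t i = v i + ρ) ∧ (0 < i → t (i - 1) = v i - ρ) := by
    intro i hi hG
    rcases halt i hi with ⟨-, h2, h3⟩ | ⟨h1, -, -⟩
    · exact ⟨h2, h3⟩
    · exfalso
      have := h1 _ hG
      rw [sub_self, abs_zero] at this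
      linarith
  have hreg : ∀ i ≤ L, v i ∉ G → (∀ g ∈ G, ρ ≤ |v i - g|) ∧
      (i < L → t i ≤ v i + d) ∧ (0 < i → v i - d ≤ t (i - 1)) := by
    intro i hi hG
    rcases halt i hi with ⟨h1, -, -⟩ | h
    · exact absurd h1 hG
    · exact h
  have ht0 : t 0 = w (p - 1) + ρ := by
    have := (hspec 0 (Nat.zero_le _) (by rw [hv0]; exact hv₀G)).1 hL
    rw [this, hv0]
  -- radii
  obtain ⟨di, hdi⟩ : ∃ di : ℕ → ℝ, ∀ i, di i = if v i ∈ G then ρ else d := ⟨_, fun _ => rfl⟩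
  have hdi1 : ∀ i, d ≤ di i := by
    intro i; rw [hdi]; split_ifs <;> linarith
  have hdi2 : ∀ i < L, t i ≤ v i + di i := by
    intro i hi
    rw [hdi]; split_ifs with h
    · exact ((hspec i hi.le h).1 hi).le
    · exact (hreg i hi.le h).2.1 hi
  have hdi3 : ∀ i ≤ L, 0 < i → v i - di i ≤ t (i - 1) := by
    intro i hi h0
    rw [hdi]; split_ifs with h
    · exact ((hspec i hi h).2 h0).ge
    · exact (hreg i hi h).2.2 h0
  have hv0i : ∀ i ≤ L, w (p - 1) ≤ v i := fun i hi => by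
    rw [← hv0]; exact m1 0 i (Nat.zero_le _) hi
  have hchild : ∀ i : Fin (L + 1),
      TG r (p + 1) 𝓕 𝓓₁ Λ (Function.update w p (v i)) (di i) := by
    intro i
    have hi : (i : ℕ) ≤ L := Nat.lt_succ_iff.1 i.2
    have hdpos : 0 < di i := hd.trans_le (hdi1 i)
    refine IH _ _ hdpos (sep_step (A := A) (ρ := ρ) hp hc0 hc1 hc (by linarith) hsep hdpos.le
      ?_ (hv0i i hi) ?_)
    · have h1 : di i ≤ ρ := by rw [hdi]; split_ifs <;> linarith
      calc A₁ * di i ≤ A₁ * ρ := mul_le_mul_of_nonneg_left h1 (by linarith)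
        _ = (A₁ * B) * d := by rw [hρdef]; ring
        _ ≤ (A * c) * d := mul_le_mul_of_nonneg_right hAb hd.le
        _ = c * (A * d) := by ring
    · by_cases h : v i ∈ G
      · obtain ⟨⟨g, hg, hgv⟩, -⟩ := (hmemG _).1 h
        exact Or.inl ⟨g, hg, hgv.symm⟩
      · right
        refine ⟨fun g hg hle => (hreg i hi h).1 _ ((hmemG _).2 ⟨⟨g, hg, rfl⟩, hle⟩), ?_⟩
        rw [hdi, if_neg h, hρdef]
        calc A₁ * d ≤ (B * c) * d := mul_le_mul_of_nonneg_right hB2 hd.le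
          _ = c * (B * d) := by ring
  choose ι inst W κ i₀ M h1 h2 h3 h4 h5 h6 using hchild
  have hWp : ∀ (i : Fin (L + 1)) (a : ι i), W i a p = v i := by
    intro i a
    rw [h1 i a p (Nat.lt_succ_self p), Function.update_self]
  have hWge : ∀ (i : Fin (L + 1)) (a : ι i), ∀ q, p ≤ q → q < p + (r + 1) → v i ≤ W i a q := by
    intro i a q hq
    induction q, hq using Nat.le_induction with
    | base => intro _; rw [hWp]
    | succ n hn ih =>
      intro hlt'
      have := h2 i a (n + 1) (by omega) (by omega)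
      have := ih (by omega)
      simp only [Nat.add_sub_cancel] at *
      linarith
  have hWtie : ∀ (i : Fin (L + 1)), ∀ q, p ≤ q → q < p + (r + 1) → W i (i₀ i) q = v i := by
    intro i q hq hq'
    rcases Nat.lt_or_ge p q with h | h
    · rw [h3 i q h (by omega)]
      simp
    · obtain rfl : q = p := le_antisymm h hq
      exact hWp i _
  refine ⟨Σ i : Fin (L + 1), ι i, inferInstance, fun x => W x.1 x.2,
    fun x H => Kc v t x.1 L H + κ x.1 x.2 H, ⟨0, i₀ 0⟩, (v L - v 0) + |M 0|, ?_, ?_, ?_, ?_, ?_, ?_⟩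
  · rintro ⟨i, a⟩ j hj
    show W i a j = w j
    rw [h1 i a j (by omega), Function.update_of_ne (by omega)]
  · rintro ⟨i, a⟩ j hj hj'
    show W i a (j - 1) ≤ W i a j
    rcases Nat.lt_or_ge p j with h | h
    · exact h2 i a j (by omega) (by omega)
    · obtain rfl : j = p := le_antisymm h hj
      rw [hWp, h1 i a (j - 1) (by omega), Function.update_of_ne (by omega)]
      exact hv0i i (Nat.lt_succ_iff.1 i.2)
  · intro j hj hj'
    show W 0 (i₀ 0) j = w (p - 1)
    rw [hWtie 0 j hj hj']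
    exact hv0
  · rintro ⟨i, a⟩
    have hi : (i : ℕ) ≤ L := Nat.lt_succ_iff.1 i.2
    refine ExpSum.add (Kc_expSum fun l hl hl' => ⟨m1 l (l + 1) (by omega) (by omega), ?_⟩) ?_
    · have := m3 0 l (Nat.zero_le _) hl'
      rw [ht0] at this
      linarith
    · refine (h4 i a).mono ?_
      simp only [Nat.add_sub_cancel, Function.update_self]
      have := hv0i i hi
      have := hdi1 i
      linarith
  · intro H hH
    show Kc v t ((0 : Fin (L + 1)) : ℕ) L H + κ 0 (i₀ 0) H ≤ _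
    have e1 : Kc v t ((0 : Fin (L + 1)) : ℕ) L H ≤
        (v L - v 0) * Real.exp (-(H * (w (p - 1) + 2 * d))) := by
      have := Kc_le (v := v) (t := t) (i := 0) (j := L) hH (Nat.zero_le _)
        (fun l hl hl' => ⟨m1 l (l + 1) (by omega) (by omega), m3 0 l (Nat.zero_le _) hl'⟩)
      refine this.trans (mul_le_mul_of_nonneg_left (Real.exp_le_exp.2 ?_)
        (sub_nonneg.2 (m1 0 L (Nat.zero_le _) le_rfl)))
      rw [ht0]
      nlinarith
    have e2 : κ 0 (i₀ 0) H ≤ |M 0| * Real.exp (-(H * (w (p - 1) + 2 * d))) := by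
      refine (h5 0 H hH).trans ?_
      refine (mul_le_mul_of_nonneg_right (le_abs_self _) (Real.exp_pos _).le).trans ?_
      refine mul_le_mul_of_nonneg_left (Real.exp_le_exp.2 ?_) (abs_nonneg _)
      simp only [Nat.add_sub_cancel, Function.update_self]
      have h7 : v ((0 : Fin (L + 1)) : ℕ) = w (p - 1) := hv0
      have h8 := hdi1 ((0 : Fin (L + 1)) : ℕ)
      rw [h7]
      nlinarith
    rw [add_mul]
    exact add_le_add e1 e2
  · intro ε hε
    have hε₁ : 0 < min (c * d) (min (c * ε) ε) :=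
      lt_min (mul_pos hc0 hd) (lt_min (mul_pos hc0 hε) hε)
    choose e he H' hH' h7 using fun i => h6 i _ hε₁
    obtain ⟨i₁, hi₁⟩ := Finite.exists_min e
    obtain ⟨i₂, hi₂⟩ := Finite.exists_max H'
    obtain ⟨η, hη0, hη1, hη2⟩ : ∃ η : ℝ, 0 < η ∧ η ≤ d ∧ η ≤ 1 / 2 :=
      ⟨min d (1 / 2), lt_min hd (by norm_num), min_le_left _ _, min_le_right _ _⟩
    have hev : ∀ᶠ H : ℝ in Filter.atTop, ∀ i j : Fin (L + 1), (i : ℕ) < j →
        2 * (|M i| * Real.exp (-(H * d))) ≤ v j - v i ∧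
        2 * (|M j| * Real.exp (-(H * d))) ≤ v j - v i := by
      refine Filter.eventually_all.2 fun i => Filter.eventually_all.2 fun j => ?_
      by_cases hij : (i : ℕ) < j
      · have hpos : 0 < v j - v i := sub_pos.2 (m2 i j hij (Nat.lt_succ_iff.1 j.2))
        exact ((step_bound hd hpos).and (step_bound hd hpos)).mono fun H hH _ => hH
      · exact Filter.Eventually.of_forall fun H h => absurd h hij
    obtain ⟨Ha, hHa⟩ := Filter.eventually_atTop.1
      (hev.and (step_large (C := 2 * ((r : ℝ) + 1)) hη0))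
    refine ⟨e i₁, he i₁, max (H' i₂) (max Ha 1), lt_max_of_lt_left (hH' i₂), ?_⟩
    intro H hH σ hσ hsort hΛ hcomp
    have hHH' : ∀ i, H' i ≤ H := fun i => (hi₂ i).trans ((le_max_left _ _).trans hH)
    have hH1 : 1 ≤ H := ((le_max_right _ _).trans (le_max_right _ _)).trans hH
    have hH0 : 0 < H := by linarith
    obtain ⟨hHb, hHc⟩ := hHa H (((le_max_left _ _).trans (le_max_right _ _)).trans hH)
    rintro ⟨i, a⟩ hmin
    have hi : (i : ℕ) ≤ L := Nat.lt_succ_iff.1 i.2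
    have hmin' : ∀ (j : Fin (L + 1)) (b : ι j),
        ∑ q ∈ Ico p (p + (r + 1)), W i a q * Real.exp (-(H * σ q)) + (Kc v t i L H + κ i a H) ≤
        ∑ q ∈ Ico p (p + (r + 1)), W j b q * Real.exp (-(H * σ q)) + (Kc v t j L H + κ j b H) :=
      fun j b => hmin ⟨j, b⟩
    set X : ℝ := ∑ q ∈ Ico p (p + (r + 1)), Real.exp (-(H * σ q)) with hX
    have hσge : ∀ q, p ≤ q → q < p + (r + 1) → σ p ≤ σ q := by
      intro q hq
      induction q, hq using Nat.le_induction with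
      | base => intro _; exact le_rfl
      | succ n hn ih =>
        intro hlt'
        have := hsort (n + 1) (by omega) (by omega)
        have := ih (by omega)
        simp only [Nat.add_sub_cancel] at *
        linarith
    have hX1 : Real.exp (-(H * σ p)) ≤ X :=
      single_le_sum (f := fun q => Real.exp (-(H * σ q))) (fun q _ => (Real.exp_pos _).le)
        (mem_Ico.2 ⟨le_rfl, by omega⟩)
    have hX2 : X ≤ ((r : ℝ) + 1) * Real.exp (-(H * σ p)) := by
      have := Finset.sum_le_card_nsmul (Ico p (p + (r + 1))) (fun q => Real.exp (-(H * σ q)))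
        (Real.exp (-(H * σ p))) (fun q hq => by
          obtain ⟨h8, h9⟩ := mem_Ico.1 hq
          refine Real.exp_le_exp.2 ?_
          have := hσge q h8 h9
          nlinarith)
      rw [Nat.card_Ico, nsmul_eq_mul] at this
      refine this.trans (le_of_eq ?_)
      congr 1
      rw [show p + (r + 1) - p = r + 1 by omega]
      push_cast
      ring
    have hbasic : ∀ j : Fin (L + 1), v i * X + Kc v t i L H ≤
        v j * X + Kc v t j L H + M j * Real.exp (-(H * (v j + 2 * di j))) := by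
      intro j
      have k1 := hmin' j (i₀ j)
      have k2 : v i * X ≤ ∑ q ∈ Ico p (p + (r + 1)), W i a q * Real.exp (-(H * σ q)) := by
        rw [hX, mul_sum]
        refine sum_le_sum fun q hq => ?_
        obtain ⟨h8, h9⟩ := mem_Ico.1 hq
        exact mul_le_mul_of_nonneg_right (hWge i a q h8 h9) (Real.exp_pos _).le
      have k3 : ∑ q ∈ Ico p (p + (r + 1)), W j (i₀ j) q * Real.exp (-(H * σ q)) = v j * X := by
        rw [hX, mul_sum]
        refine sum_congr rfl fun q hq => ?_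
        obtain ⟨h8, h9⟩ := mem_Ico.1 hq
        rw [hWtie j q h8 h9]
      have k4 := (h4 i a).nonneg H
      have k5 := h5 j H hH0.le
      simp only [Nat.add_sub_cancel, Function.update_self] at k5
      rw [k3] at k1
      linarith
    have hlow : ∀ j, j < (i : ℕ) → t j - η ≤ σ p := by
      intro j hj
      have hjL : j < L + 1 := by omega
      have k1 := hbasic ⟨j, hjL⟩
      have k2 := (hHb ⟨j, hjL⟩ i hj).1
      simp only at k1 k2
      have k3 := cmp_low (d := d) hlt hH0.le hj hi (m := v j + 2 * di j) (by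
        have := hdi2 j (by omega)
        have := hdi1 j
        linarith) (by
        have := mul_nonneg (abs_nonneg (M ⟨j, hjL⟩)) (Real.exp_pos (-(H * d))).le
        linarith) k1
      exact exp_cmp (c := 2) hH0 (by
        have : (0 : ℝ) ≤ r := Nat.cast_nonneg r
        linarith) (hX1.trans k3)
    have hup : ∀ j, (i : ℕ) < j → j ≤ L → σ p ≤ t (j - 1) + η := by
      intro j hj hjL
      have hjL' : j < L + 1 := by omega
      have k1 := hbasic ⟨j, hjL'⟩
      have k2 := (hHb i ⟨j, hjL'⟩ hj).2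
      simp only at k1 k2
      have k3 := cmp_up (d := d) hlt hH0.le hj hjL (m := v j + 2 * di j) (by
        have := m4 (j - 1) j (by omega) hjL
        have := hdi1 j
        linarith) k2 k1
      have k4 : Real.exp (-(H * t (j - 1))) ≤ (2 * ((r : ℝ) + 1)) * Real.exp (-(H * σ p)) := by
        refine k3.trans ?_
        linarith
      have := exp_cmp hH0 hHc k4
      linarith
    have hσp : |σ p - v i| ≤ 2 * di i := by
      rw [abs_le]
      constructor
      · rcases Nat.eq_zero_or_pos (i : ℕ) with h0 | h0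
        · have k1 := hsort p le_rfl (by omega)
          have k2 := (abs_le.1 (hσ (p - 1) (by omega))).1
          have k3 := hdi1 i
          rw [h0] at k3 ⊢
          rw [hv0]
          linarith
        · have k1 := hlow (i - 1) (by omega)
          have k2 := hdi3 i hi h0
          have k3 := hdi1 i
          linarith
      · rcases Nat.lt_or_ge (i : ℕ) L with h0 | h0
        · have k1 := hup (i + 1) (by omega) h0
          simp only [Nat.add_sub_cancel] at k1
          have k2 := hdi2 i h0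
          have k3 := hdi1 i
          linarith
        · exfalso
          have k0 : (i : ℕ) = L := le_antisymm hi h0
          have k1 := hlow (L - 1) (by omega)
          have k2 := hΛ p (by omega)
          linarith
    have hcs := compat_step hp hc0 hc hlip hd hε hη1 hρ3 hlt hv0 (i := i) (by
      intro g hg hle
      have k1 : ev p g w ∈ G := (hmemG _).2 ⟨⟨g, hg, rfl⟩, hle⟩
      obtain ⟨j, hjL, hj⟩ := hcovG _ k1
      have k2 := hspec j hjL.le (by rw [hj]; exact k1)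
      exact ⟨j, hjL, hj, k2.1 hjL, k2.2⟩) hi hσ (hsort p le_rfl (by omega)) hlow hup hcomp
    have hfin := h7 i H (hHH' i) σ (by
      intro j hj
      rcases Nat.lt_succ_iff_lt_or_eq.1 hj with h | rfl
      · rw [Function.update_of_ne (by omega)]
        exact (hσ j h).trans (by have := hdi1 i; linarith)
      · rw [Function.update_self]; exact hσp) (fun j hj hj' => hsort j (by omega) (by omega))
      (fun j hj => hΛ j (by omega)) hcs a (by
        intro b
        have k1 := hmin' i b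
        rw [sum_eq_sum_Ico_succ_bot (by omega : p < p + (r + 1)),
          sum_eq_sum_Ico_succ_bot (by omega : p < p + (r + 1)), hWp, hWp] at k1
        rw [show p + 1 + r = p + (r + 1) by omega]
        linarith)
    intro D hD hpos
    rw [show p + (r + 1) = p + 1 + r by omega] at hpos ⊢
    exact (hi₁ i).trans (hfin D hD hpos)

theorem tree (r : ℕ) : ∀ (p : ℕ), 1 ≤ p → ∀ (𝓕 : Finset (ℕ → ℝ)) (Λ : ℝ),
    ∃ (𝓓 : Finset (ℕ → ℝ)) (A : ℝ), 1 ≤ A ∧
    ∀ (w : ℕ → ℝ) (d : ℝ), 0 < d → Sep p 𝓓 w (A * d) → TG r p 𝓕 𝓓 Λ w d := by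
  induction r with
  | zero =>
    intro p _ 𝓕 Λ
    exact ⟨𝓕, 1, le_rfl, fun w d _ _ => tg_zero p 𝓕 Λ w d⟩
  | succ r ih =>
    intro p hp 𝓕 Λ
    obtain ⟨𝓓₁, A₁, hA₁, IH⟩ := ih (p + 1) (by omega) 𝓕 Λ
    obtain ⟨A, hA, h⟩ := tree_step r p hp 𝓕 𝓓₁ Λ A₁ hA₁ IH
    exact ⟨DD p 𝓓₁, A, hA, h⟩

end Crest.Agent.Perm122
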