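import Mathlib
import Crest.Agent.Perm122.Tree
import Crest.Agent.Perm122.PieceOf

/-! S0122, part PIECE: one piece of the polytope. -/

set_option autoImplicit false

open Finset

namespace Crest.Agent.Perm122

theorem piece (q : ℕ) (hq : 0 < q) (s : ℝ) (hs : s = 1 ∨ s = -1) (𝓓 : Finset (Fin q → ℝ))
    (h𝓓 : ∀ D ∈ 𝓓, ∀ τ : Equiv.Perm (Fin q), D ∘ τ ∈ 𝓓) (Λ : ℝ) :
    ∃ (ι : Type) (_ : Fintype ι) (W : ι → Fin q → ℝ) (κ κ' : ι → ℝ → ℝ) (ε H₀ : ℝ),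
      0 < ε ∧ ε ≤ 1 ∧ 0 < H₀ ∧ (∀ i j, s ≤ W i j) ∧ (∃ i₀, ∀ j, W i₀ j = s) ∧
      (∀ i, Continuous (κ' i)) ∧
      (∀ i, ∀ H ≥ H₀, 0 ≤ κ i H ∧ κ i H ≤ Real.exp (-(s * H)) / 2 ∧
        HasDerivAt (κ i) (κ' i H) H ∧ |κ' i H| ≤ Real.exp (-(s * H)) / 2) ∧
      ∀ H ≥ H₀, ∀ x : Fin q → ℝ, (∀ j, Real.exp (-(Λ * H)) ≤ x j) →
        (∀ i, ∀ τ : Equiv.Perm (Fin q),
          s * Real.exp (-(s * H)) - κ i H ≤ ∑ j, W i j * x (τ j)) →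
        ∀ i, ∑ j, W i j * x j = s * Real.exp (-(s * H)) - κ i H →
          ∀ D ∈ 𝓓, 0 < ∑ j, D j * W i j → ε * H ≤ ∑ j, D j * (-Real.log (x j)) :=
  piece_of (fun r p hp 𝓕 Λ => tree r p hp 𝓕 Λ) q hq s hs 𝓓 h𝓓 Λ

end Crest.Agent.Perm122
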