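import Crest.Agent.Perm122.Defs

/-! S0122, TREE part A: functionals, elimination, finite sums of exponentials. -/

set_option autoImplicit false

open Finset

namespace Crest.Agent.Perm122

theorem ev_succ (p : ℕ) (D w : ℕ → ℝ) : ev (p + 1) D w = ev p D w + D p * w p := by
  unfold ev; rw [sum_range_succ]

theorem ev_congr {p : ℕ} {D w w' : ℕ → ℝ} (h : ∀ j < p, w j = w' j) : ev p D w = ev p D w' := by
  unfold ev
  exact sum_congr rfl fun i hi => by rw [h i (mem_range.1 hi)]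

theorem ev_sub (p : ℕ) (D D' w : ℕ → ℝ) : ev p (D - D') w = ev p D w - ev p D' w := by
  unfold ev
  rw [← sum_sub_distrib]
  exact sum_congr rfl fun i _ => by simp [sub_mul]

/-- the solution of `ev (p+1) D w = 0` for `w p` as a functional on the first `p` entries -/
noncomputable def gD (p : ℕ) (D : ℕ → ℝ) : ℕ → ℝ := fun i => - D i / D p

theorem ev_gD {p : ℕ} {D : ℕ → ℝ} (h : D p ≠ 0) (w : ℕ → ℝ) :
    ev (p + 1) D w = D p * (w p - ev p (gD p D) w) := by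
  rw [ev_succ]
  have : D p * ev p (gD p D) w = - ev p D w := by
    unfold ev gD
    rw [mul_sum, ← sum_neg_distrib]
    exact sum_congr rfl fun i _ => by field_simp
  rw [mul_sub, this]; ring

/-- the functional `w ↦ w (p - 1)` -/
def tieF (p : ℕ) : ℕ → ℝ := fun i => if i = p - 1 then 1 else 0

theorem ev_tieF {p : ℕ} (hp : 1 ≤ p) (w : ℕ → ℝ) : ev p (tieF p) w = w (p - 1) := by
  unfold ev tieF
  rw [sum_eq_single (p - 1)]
  · simp
  · intro b _ hb; simp [hb]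
  · intro h; exact absurd (mem_range.2 (by omega)) h

open Classical in
/-- special value functionals -/
noncomputable def GG (p : ℕ) (𝓓 : Finset (ℕ → ℝ)) : Finset (ℕ → ℝ) :=
  insert (tieF p) ((𝓓.filter fun D => D p ≠ 0).image (gD p))

open Classical in
/-- eliminated functionals -/
noncomputable def DD (p : ℕ) (𝓓 : Finset (ℕ → ℝ)) : Finset (ℕ → ℝ) :=
  (𝓓.filter fun D => D p = 0) ∪ ((GG p 𝓓 ×ˢ GG p 𝓓).image fun q => q.1 - q.2)

theorem tie_mem_GG (p : ℕ) (𝓓 : Finset (ℕ → ℝ)) : tieF p ∈ GG p 𝓓 := by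
  classical
  unfold GG; exact mem_insert_self _ _

theorem gD_mem_GG {p : ℕ} {𝓓 : Finset (ℕ → ℝ)} {D : ℕ → ℝ} (hD : D ∈ 𝓓) (h : D p ≠ 0) :
    gD p D ∈ GG p 𝓓 := by
  classical
  unfold GG
  exact mem_insert_of_mem (mem_image_of_mem _ (mem_filter.2 ⟨hD, h⟩))

theorem mem_DD_of_zero {p : ℕ} {𝓓 : Finset (ℕ → ℝ)} {D : ℕ → ℝ} (hD : D ∈ 𝓓) (h : D p = 0) :
    D ∈ DD p 𝓓 := by
  classical
  unfold DD
  exact mem_union_left _ (mem_filter.2 ⟨hD, h⟩)

theorem sub_mem_DD {p : ℕ} {𝓓 : Finset (ℕ → ℝ)} {g g' : ℕ → ℝ} (hg : g ∈ GG p 𝓓)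
    (hg' : g' ∈ GG p 𝓓) : g - g' ∈ DD p 𝓓 := by
  classical
  unfold DD
  exact mem_union_right _ (mem_image.2 ⟨(g, g'), mem_product.2 ⟨hg, hg'⟩, rfl⟩)

theorem exists_lower (p : ℕ) (𝓓 : Finset (ℕ → ℝ)) :
    ∃ c : ℝ, 0 < c ∧ c ≤ 1 ∧ ∀ D ∈ 𝓓, D p ≠ 0 → c ≤ |D p| := by
  classical
  induction 𝓓 using Finset.induction_on with
  | empty => exact ⟨1, one_pos, le_rfl, fun D hD => absurd hD (notMem_empty _)⟩
  | insert D 𝓓 _ ih =>
    obtain ⟨c, hc, hc1, h⟩ := ih
    by_cases hD : D p = 0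
    · refine ⟨c, hc, hc1, fun D' hD' hne => ?_⟩
      rcases mem_insert.1 hD' with rfl | h'
      · exact absurd hD hne
      · exact h D' h' hne
    · refine ⟨min c |D p|, lt_min hc (abs_pos.2 hD), (min_le_left _ _).trans hc1,
        fun D' hD' hne => ?_⟩
      rcases mem_insert.1 hD' with rfl | h'
      · exact min_le_right _ _
      · exact (min_le_left _ _).trans (h D' h' hne)

theorem exists_lip (p : ℕ) (𝓖 : Finset (ℕ → ℝ)) :
    ∃ C : ℝ, 0 ≤ C ∧ ∀ g ∈ 𝓖, ∀ (σ w : ℕ → ℝ) (e : ℝ), (∀ j < p, |σ j - w j| ≤ e) →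
      |ev p g σ - ev p g w| ≤ C * e := by
  classical
  refine ⟨∑ g ∈ 𝓖, ∑ i ∈ range p, |g i|, sum_nonneg fun g _ => sum_nonneg fun i _ => abs_nonneg _,
    ?_⟩
  intro g hg σ w e he
  rcases Nat.eq_zero_or_pos p with rfl | hp
  · simp [ev]
  have he0 : 0 ≤ e := (abs_nonneg _).trans (he 0 hp)
  have h1 : |ev p g σ - ev p g w| ≤ (∑ i ∈ range p, |g i|) * e := by
    unfold ev
    rw [← sum_sub_distrib, sum_mul]
    refine (abs_sum_le_sum_abs _ _).trans (sum_le_sum fun i hi => ?_)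
    rw [← mul_sub, abs_mul]
    exact mul_le_mul_of_nonneg_left (he i (mem_range.1 hi)) (abs_nonneg _)
  refine h1.trans (mul_le_mul_of_nonneg_right ?_ he0)
  exact single_le_sum (f := fun g : ℕ → ℝ => ∑ i ∈ range p, |g i|)
    (fun g _ => sum_nonneg fun i _ => abs_nonneg _) hg

/-! ### Finite sums of exponentials -/

theorem ExpSum.zero (b : ℝ) : ExpSum b fun _ => 0 :=
  ⟨0, Fin.elim0, Fin.elim0, fun i => i.elim0, fun i => i.elim0, fun H => by simp⟩

theorem ExpSum.single {b c θ : ℝ} (hc : 0 ≤ c) (hθ : b ≤ θ) :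
    ExpSum b fun H => c * Real.exp (-(H * θ)) :=
  ⟨1, fun _ => c, fun _ => θ, fun _ => hc, fun _ => hθ, fun H => by simp⟩

theorem ExpSum.add {b : ℝ} {f g : ℝ → ℝ} (hf : ExpSum b f) (hg : ExpSum b g) :
    ExpSum b fun H => f H + g H := by
  obtain ⟨n, c, θ, h1, h2, h3⟩ := hf
  obtain ⟨n', c', θ', h1', h2', h3'⟩ := hg
  refine ⟨n + n', Fin.append c c', Fin.append θ θ', ?_, ?_, ?_⟩
  · intro i
    refine Fin.addCases (fun i => ?_) (fun i => ?_) i
    · rw [Fin.append_left]; exact h1 i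
    · rw [Fin.append_right]; exact h1' i
  · intro i
    refine Fin.addCases (fun i => ?_) (fun i => ?_) i
    · rw [Fin.append_left]; exact h2 i
    · rw [Fin.append_right]; exact h2' i
  · intro H
    show f H + g H = _
    rw [h3, h3', Fin.sum_univ_add]
    simp only [Fin.append_left, Fin.append_right]

theorem ExpSum.mono {b b' : ℝ} {f : ℝ → ℝ} (hf : ExpSum b f) (h : b' ≤ b) : ExpSum b' f := by
  obtain ⟨n, c, θ, h1, h2, h3⟩ := hf
  exact ⟨n, c, θ, h1, fun i => h.trans (h2 i), h3⟩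

theorem ExpSum.sum {b : ℝ} {α : Type} (s : Finset α) (f : α → ℝ → ℝ)
    (hf : ∀ a ∈ s, ExpSum b (f a)) : ExpSum b fun H => ∑ a ∈ s, f a H := by
  classical
  induction s using Finset.induction_on with
  | empty => simpa using ExpSum.zero b
  | insert a s ha ih =>
    have := (hf a (mem_insert_self _ _)).add (ih fun a' ha' => hf a' (mem_insert_of_mem ha'))
    simpa only [sum_insert ha] using this

theorem ExpSum.nonneg {b : ℝ} {f : ℝ → ℝ} (hf : ExpSum b f) (H : ℝ) : 0 ≤ f H := by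
  obtain ⟨n, c, θ, h1, h2, h3⟩ := hf
  rw [h3]
  exact sum_nonneg fun i _ => mul_nonneg (h1 i) (Real.exp_pos _).le

end Crest.Agent.Perm122
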