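import Crest.Agent.Perm122.TreeA
import Crest.Agent.Perm122.Ladder

/-! S0122, TREE part B: costs of the ladder, comparison of minimisers. -/

set_option autoImplicit false

open Finset

namespace Crest.Agent.Perm122

/-- cost of the cells `i, …, L - 1` -/
noncomputable def Kc (v t : ℕ → ℝ) (i L : ℕ) (H : ℝ) : ℝ :=
  ∑ l ∈ Ico i L, (v (l + 1) - v l) * Real.exp (-(H * t l))

theorem Kc_split (v t : ℕ → ℝ) {i j L : ℕ} (hij : i ≤ j) (hjL : j ≤ L) (H : ℝ) :
    Kc v t i L H = Kc v t i j H + Kc v t j L H := by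
  unfold Kc
  rw [sum_Ico_consecutive _ hij hjL]

theorem telescope (v : ℕ → ℝ) {i j : ℕ} (hij : i ≤ j) :
    ∑ l ∈ Ico i j, (v (l + 1) - v l) = v j - v i := by
  rw [sum_Ico_eq_sub _ hij, sum_range_sub, sum_range_sub]; ring

theorem Kc_le {v t : ℕ → ℝ} {i j : ℕ} {H : ℝ} (hH : 0 ≤ H) (hij : i ≤ j)
    (h : ∀ l, i ≤ l → l < j → v l ≤ v (l + 1) ∧ t i ≤ t l) :
    Kc v t i j H ≤ (v j - v i) * Real.exp (-(H * t i)) := by
  rw [← telescope v hij, sum_mul]
  unfold Kc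
  refine sum_le_sum fun l hl => ?_
  obtain ⟨h1, h2⟩ := mem_Ico.1 hl
  obtain ⟨h3, h4⟩ := h l h1 h2
  exact mul_le_mul_of_nonneg_left (Real.exp_le_exp.2 (by nlinarith)) (sub_nonneg.2 h3)

theorem Kc_ge {v t : ℕ → ℝ} {i j : ℕ} {H : ℝ} (hH : 0 ≤ H) (hij : i ≤ j)
    (h : ∀ l, i ≤ l → l < j → v l ≤ v (l + 1) ∧ t l ≤ t (j - 1)) :
    (v j - v i) * Real.exp (-(H * t (j - 1))) ≤ Kc v t i j H := by
  rw [← telescope v hij, sum_mul]
  unfold Kc
  refine sum_le_sum fun l hl => ?_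
  obtain ⟨h1, h2⟩ := mem_Ico.1 hl
  obtain ⟨h3, h4⟩ := h l h1 h2
  exact mul_le_mul_of_nonneg_left (Real.exp_le_exp.2 (by nlinarith)) (sub_nonneg.2 h3)

theorem Kc_expSum {v t : ℕ → ℝ} {i L : ℕ} {b : ℝ}
    (h : ∀ l, i ≤ l → l < L → v l ≤ v (l + 1) ∧ b ≤ t l) : ExpSum b (Kc v t i L) := by
  unfold Kc
  refine ExpSum.sum _ (fun l H => (v (l + 1) - v l) * Real.exp (-(H * t l))) fun l hl => ?_
  obtain ⟨h1, h2⟩ := mem_Ico.1 hl
  obtain ⟨h3, h4⟩ := h l h1 h2
  exact ExpSum.single (sub_nonneg.2 h3) h4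

theorem Kc_nonneg {v t : ℕ → ℝ} {i L : ℕ} {H : ℝ}
    (h : ∀ l, i ≤ l → l < L → v l ≤ v (l + 1)) : 0 ≤ Kc v t i L H := by
  unfold Kc
  refine sum_nonneg fun l hl => ?_
  obtain ⟨h1, h2⟩ := mem_Ico.1 hl
  exact mul_nonneg (sub_nonneg.2 (h l h1 h2)) (Real.exp_pos _).le

/-- monotonicity facts of a ladder -/
theorem lad_mono {v t : ℕ → ℝ} {L : ℕ} (h : ∀ i < L, v i < t i ∧ t i < v (i + 1)) :
    (∀ j i, j ≤ i → i ≤ L → v j ≤ v i) ∧ (∀ j i, j < i → i ≤ L → v j < v i) ∧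
      (∀ j i, j ≤ i → i < L → t j ≤ t i) ∧ (∀ j i, j < i → i ≤ L → t j < v i) ∧
      (∀ j i, j ≤ i → i < L → v j < t i) := by
  have h1 : ∀ j i, j ≤ i → i ≤ L → v j ≤ v i := by
    intro j i hji
    induction i, hji using Nat.le_induction with
    | base => intro _; exact le_rfl
    | succ n hn ih =>
      intro hL
      have := h n (by omega)
      have := ih (by omega)
      linarith
  have h2 : ∀ j i, j < i → i ≤ L → t j < v i := by
    intro j i hji hiL
    have h3 := h j (by omega)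
    have h4 := h1 (j + 1) i hji hiL
    linarith
  refine ⟨h1, ?_, ?_, h2, ?_⟩
  · intro j i hji hiL
    have h3 := h j (by omega)
    have h4 := h2 j i hji hiL
    linarith
  · intro j i hji hiL
    rcases Nat.lt_or_ge j i with h3 | h3
    · have h4 := h2 j i h3 hiL.le
      have h5 := h i hiL
      linarith
    · rw [le_antisymm hji h3]
  · intro j i hji hiL
    have h3 := h1 j i hji hiL.le
    have h4 := h i hiL
    linarith

theorem cmp_low {v t : ℕ → ℝ} {L i j : ℕ} {H X M m d : ℝ}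
    (h : ∀ i < L, v i < t i ∧ t i < v (i + 1)) (hH : 0 ≤ H) (hji : j < i) (hiL : i ≤ L)
    (hm : t j + d ≤ m) (hM : |M| * Real.exp (-(H * d)) ≤ v i - v j)
    (hmin : v i * X + Kc v t i L H ≤ v j * X + Kc v t j L H + M * Real.exp (-(H * m))) :
    X ≤ 2 * Real.exp (-(H * t j)) := by
  obtain ⟨m1, m2, m3, m4, m5⟩ := lad_mono h
  have hpos : 0 < v i - v j := sub_pos.2 (m2 j i hji hiL)
  have h1 : Kc v t j L H = Kc v t j i H + Kc v t i L H := Kc_split v t hji.le hiL H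
  have h2 : Kc v t j i H ≤ (v i - v j) * Real.exp (-(H * t j)) :=
    Kc_le hH hji.le fun l hl hl' => ⟨m1 l (l + 1) (by omega) (by omega), m3 j l hl (by omega)⟩
  have h3 : M * Real.exp (-(H * m)) ≤ (v i - v j) * Real.exp (-(H * t j)) := by
    calc M * Real.exp (-(H * m)) ≤ |M| * Real.exp (-(H * m)) :=
          mul_le_mul_of_nonneg_right (le_abs_self M) (Real.exp_pos _).le
      _ ≤ |M| * (Real.exp (-(H * d)) * Real.exp (-(H * t j))) := by
          rw [← Real.exp_add]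
          exact mul_le_mul_of_nonneg_left (Real.exp_le_exp.2 (by nlinarith)) (abs_nonneg M)
      _ = (|M| * Real.exp (-(H * d))) * Real.exp (-(H * t j)) := by ring
      _ ≤ _ := mul_le_mul_of_nonneg_right hM (Real.exp_pos _).le
  have h4 : (v i - v j) * X ≤ (v i - v j) * (2 * Real.exp (-(H * t j))) := by
    rw [h1] at hmin
    nlinarith
  exact le_of_mul_le_mul_left h4 hpos

theorem cmp_up {v t : ℕ → ℝ} {L i j : ℕ} {H X M m d : ℝ}
    (h : ∀ i < L, v i < t i ∧ t i < v (i + 1)) (hH : 0 ≤ H) (hij : i < j) (hjL : j ≤ L)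
    (hm : t (j - 1) + d ≤ m) (hM : 2 * (|M| * Real.exp (-(H * d))) ≤ v j - v i)
    (hmin : v i * X + Kc v t i L H ≤ v j * X + Kc v t j L H + M * Real.exp (-(H * m))) :
    Real.exp (-(H * t (j - 1))) ≤ 2 * X := by
  obtain ⟨m1, m2, m3, m4, m5⟩ := lad_mono h
  have hpos : 0 < v j - v i := sub_pos.2 (m2 i j hij hjL)
  have h1 : Kc v t i L H = Kc v t i j H + Kc v t j L H := Kc_split v t hij.le hjL H
  have h2 : (v j - v i) * Real.exp (-(H * t (j - 1))) ≤ Kc v t i j H :=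
    Kc_ge hH hij.le fun l hl hl' =>
      ⟨m1 l (l + 1) (by omega) (by omega), m3 l (j - 1) (by omega) (by omega)⟩
  have h3 : M * Real.exp (-(H * m)) ≤ (v j - v i) / 2 * Real.exp (-(H * t (j - 1))) := by
    calc M * Real.exp (-(H * m)) ≤ |M| * Real.exp (-(H * m)) :=
          mul_le_mul_of_nonneg_right (le_abs_self M) (Real.exp_pos _).le
      _ ≤ |M| * (Real.exp (-(H * d)) * Real.exp (-(H * t (j - 1)))) := by
          rw [← Real.exp_add]
          exact mul_le_mul_of_nonneg_left (Real.exp_le_exp.2 (by nlinarith)) (abs_nonneg M)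
      _ = (|M| * Real.exp (-(H * d))) * Real.exp (-(H * t (j - 1))) := by ring
      _ ≤ _ := mul_le_mul_of_nonneg_right (by linarith) (Real.exp_pos _).le
  have h4 : (v j - v i) * Real.exp (-(H * t (j - 1))) ≤ (v j - v i) * (2 * X) := by
    rw [h1] at hmin
    nlinarith
  exact le_of_mul_le_mul_left h4 hpos

theorem exp_cmp {H η c a b : ℝ} (hH : 0 < H) (hc : c ≤ Real.exp (H * η))
    (h : Real.exp (-(H * a)) ≤ c * Real.exp (-(H * b))) : b - η ≤ a := by
  have h1 : Real.exp (-(H * a)) ≤ Real.exp (-(H * (b - η))) := by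
    calc Real.exp (-(H * a)) ≤ c * Real.exp (-(H * b)) := h
      _ ≤ Real.exp (H * η) * Real.exp (-(H * b)) :=
          mul_le_mul_of_nonneg_right hc (Real.exp_pos _).le
      _ = Real.exp (-(H * (b - η))) := by rw [← Real.exp_add]; congr 1; ring
  have h2 := Real.exp_le_exp.1 h1
  have h3 : H * (b - η) ≤ H * a := by linarith
  exact le_of_mul_le_mul_left h3 hH

end Crest.Agent.Perm122
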